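import Vale.Agent.P129.H487.LemmaU
import Vale.Agent.P129.H50.Supply
import Vale.Agent.P129.H630.B1

/-!
# P129, part H3: exact pairs from Lemma T and Lemma U
-/

namespace Vale.Agent.P129.H487

open Finset Vale.Agent.P129.H448

/-- Conclusion of Lemma T for the block sequence `h`: in every tail of `h` there are normalised
averages on which all special segments with weight indices `≥ W₀(δ)` are at most `δ`. -/
def LemT (h : ℕ → Vec) : Prop :=
  ∀ δ : ℝ, 0 < δ → ∃ W₀ : ℕ, ∀ n₀ k₀ : ℕ, ∃ x : Vec,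
    x ∈ Submodule.span ℝ (h '' {k | k₀ ≤ k}) ∧ nrm x = 1 ∧ AvgBound n₀ x 3 ∧
      ∀ s : Seg, s.Ok K → (∀ w ∈ s.idx, W₀ ≤ w) → |ap s.fn x| ≤ δ

/-- dependent recursion -/
theorem exists_rec {S : Type*} (Inv : ℕ → S → Prop) (R : ℕ → S → S → Prop) (s₀ : S)
    (h0 : Inv 0 s₀) (hstep : ∀ i s, Inv i s → ∃ s', Inv (i + 1) s' ∧ R i s s') :
    ∃ f : ℕ → S, f 0 = s₀ ∧ (∀ i, Inv i (f i)) ∧ ∀ i, R i (f i) (f (i + 1)) := by
  choose! g hg1 hg2 using hstep
  let f : ℕ → S := fun n => Nat.rec s₀ (fun i s => g i s) n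
  have hf : ∀ i, Inv i (f i) := by
    intro i
    induction i with
    | zero => exact h0
    | succ i ih => exact hg1 i (f i) ih
  exact ⟨f, rfl, hf, fun i => hg2 i (f i) (hf i)⟩

/-- `m` tends to infinity. -/
theorem exists_le_m (c : ℝ) (n : ℕ) : ∃ L : ℕ, n < L ∧ c ≤ m L := by
  obtain ⟨k, hk⟩ := exists_nat_ge c
  refine ⟨2 ^ (n + k), ?_, ?_⟩
  · exact lt_of_le_of_lt (Nat.le_add_right n k) Nat.lt_two_pow_self
  · have h1 : m (2 ^ (n + k)) = 64 * (1 + (n + k)) := by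
      unfold m fw; rw [Nat.log_pow (by norm_num)]
    have h2 : k ≤ m (2 ^ (n + k)) := by rw [h1]; omega
    exact hk.trans (by exact_mod_cast h2)

/-- The state of the construction of a rapidly increasing sequence. -/
structure St where
  x : Vec
  D : ℕ
  L : ℕ
  k : ℕ
  η : ℝ

/-- One step of the construction. -/
theorem exists_step {h : ℕ → Vec} (hT : LemT h) (i : ℕ) {η : ℝ} (hη : 0 < η) (D₀ k₀ : ℕ) :
    ∃ (x : Vec) (D L : ℕ), D₀ ≤ D ∧ D < L ∧ x ∈ Submodule.span ℝ (h '' {k | k₀ ≤ k}) ∧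
      nrm x = 1 ∧ AvgBound D x 3 ∧ l1 x / m L ≤ (1 / 2) ^ (i + 4) ∧
      ∀ s : Seg, s.Ok K → (∀ w ∈ s.idx, D < ell w ∧ ell w < L) → |ap s.fn x| ≤ η := by
  obtain ⟨W₀, hW⟩ := hT η hη
  obtain ⟨x, hx1, hx2, hx3, hx4⟩ := hW (max D₀ (ell W₀)) k₀
  obtain ⟨L, hL1, hL2⟩ := exists_le_m (l1 x * 2 ^ (i + 4)) (max D₀ (ell W₀))
  refine ⟨x, max D₀ (ell W₀), L, le_max_left _ _, hL1, hx1, hx2, hx3, ?_, ?_⟩
  · rw [div_le_iff₀ (m_posR L), one_div, inv_pow, ← div_eq_inv_mul, le_div_iff₀ (by positivity)]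
    exact hL2
  · intro s hs hw
    refine hx4 s hs fun w hws => ?_
    have h1 := (hw w hws).1
    have h2 : ell W₀ < ell w := lt_of_le_of_lt (le_max_right _ _) h1
    exact (ell_strictMono.lt_iff_lt.1 h2).le

/-- Rapidly increasing sequences of good vectors in every tail. -/
theorem exists_RIS {l : W} {h : ℕ → Vec} (hb : IsBlock l h) (hT : LemT h) (k₀ : ℕ) :
    ∃ (x : ℕ → Vec) (D L : ℕ → ℕ) (η : ℕ → ℝ), RIS x D L η ∧ (∀ i, nrm (x i) = 1) ∧
      ∀ i, x i ∈ Submodule.span ℝ (h '' {k | k₀ ≤ k}) := by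
  classical
  obtain ⟨x0, D0, L0, -, h01, h02, h03, h04, h05, h06⟩ := exists_step hT 0 one_pos 0 k₀
  obtain ⟨f, -, hInv, hR⟩ := exists_rec
    (Inv := fun i (s : St) => k₀ ≤ s.k ∧ s.D < s.L ∧
      s.x ∈ Submodule.span ℝ (h '' {k | s.k ≤ k}) ∧ nrm s.x = 1 ∧ AvgBound s.D s.x 3 ∧
      l1 s.x / m s.L ≤ (1 / 2) ^ (i + 4) ∧ 0 < s.η ∧
      ∀ sg : Seg, sg.Ok K → (∀ w ∈ sg.idx, s.D < ell w ∧ ell w < s.L) → |ap sg.fn s.x| ≤ s.η)
    (R := fun i (s s' : St) => s.L ≤ s'.D ∧ s.k ≤ s'.k ∧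
      (∀ k, s'.k ≤ k → ∀ a ∈ s.x.support, ∀ b ∈ (h k).support, a < b) ∧
      (s.L : ℝ) * s'.η ≤ (1 / 2) ^ (i + 3))
    (s₀ := ⟨x0, D0, L0, k₀, 1⟩) ⟨le_rfl, h01, h02, h03, h04, h05, one_pos, h06⟩
    (by
      rintro i s ⟨h1, h2, h3, h4, h5, h6, h7, h8⟩
      have hlt : ∀ a ∈ s.x.support, a < l := by
        intro a ha
        obtain ⟨k, -, hk⟩ := H50.mem_support_of_span h3 a ha
        exact hb.lt k a hk
      obtain ⟨k1, hk1⟩ := H50.exists_tail hb s.x.support hlt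
      have hLpos : (0 : ℝ) < s.L := by exact_mod_cast (by omega : 0 < s.L)
      have hη : 0 < (1 / 2 : ℝ) ^ (i + 3) / s.L := by positivity
      obtain ⟨x, D, L, g0, g1, g2, g3, g4, g5, g6⟩ := exists_step hT (i + 1) hη s.L (max s.k k1)
      refine ⟨⟨x, D, L, max s.k k1, (1 / 2 : ℝ) ^ (i + 3) / s.L⟩,
        ⟨h1.trans (le_max_left _ _), g1, g2, g3, g4, g5, hη, g6⟩,
        ⟨g0, le_max_left _ _, fun k hk => hk1 k ((le_max_right _ _).trans hk), ?_⟩⟩
      simp only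
      rw [mul_div_cancel₀ _ hLpos.ne'])
  have hkmono : Monotone fun i => (f i).k := monotone_nat_of_le_succ fun i => (hR i).2.1
  refine ⟨fun i => (f i).x, fun i => (f i).D, fun i => (f i).L, fun i => (f i).η, ?_,
    fun i => (hInv i).2.2.2.1, fun i => ?_⟩
  · exact
      { hs := by
          intro i j hij a ha b hb'
          obtain ⟨k, hk, hbk⟩ := H50.mem_support_of_span (hInv j).2.2.1 b hb'
          exact (hR i).2.2.1 k ((hkmono (show i + 1 ≤ j from hij)).trans hk) a ha b hbk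
        hDL := fun i => (hInv i).2.1
        hLD := fun i => (hR i).1
        h1 := fun i => (hInv i).2.2.2.1.le
        h2 := fun i => (hInv i).2.2.2.2.1
        h3 := fun i => (hInv i).2.2.2.2.2.1
        h5 := fun i => (hInv i).2.2.2.2.2.2.2
        h6 := fun i => (hR i).2.2.2
        heta := fun i => (hInv i).2.2.2.2.2.2.1.le }
  · refine Submodule.span_mono ?_ (hInv i).2.2.1
    exact Set.image_mono fun k hk => (hInv i).1.trans hk

theorem nrm_nonneg (x : Vec) : 0 ≤ nrm x := Real.iSup_nonneg fun _ => abs_nonneg _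

/-- A functional which almost attains the norm, with support in the range of the vector. -/
theorem exists_half {x : Vec} (hx : nrm x = 1) :
    ∃ φ ∈ K, (φ.support : Set W) ⊆ ran x.support ∧ 1 / 2 < ap φ x := by
  classical
  have : Nonempty K := ⟨⟨0, Kst_subset_K 0 (Or.inl rfl)⟩⟩
  obtain ⟨φ, hφ⟩ : ∃ φ : K, 1 / 2 < |ap φ.1 x| := by
    by_contra hcon
    push Not at hcon
    have : nrm x ≤ 1 / 2 := ciSup_le hcon
    linarith
  have key : ∀ ψ ∈ K, 1 / 2 < ap ψ x →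
      ∃ φ ∈ K, (φ.support : Set W) ⊆ ran x.support ∧ 1 / 2 < ap φ x := by
    intro ψ hψ h
    refine ⟨res (ran x.support) ψ, ?_, ?_, ?_⟩
    · obtain ⟨s, hs⟩ := Set.mem_iUnion.1 hψ
      exact Kst_subset_K s (res_mem_Kst (ran_ordConnected _) s ψ hs)
    · intro a ha
      have ha' : res (ran x.support) ψ a ≠ 0 := Finsupp.mem_support_iff.1 ha
      rw [res_apply] at ha'
      by_contra hcon
      rw [if_neg hcon] at ha'
      exact ha' rfl
    · have e : ap (res (ran x.support) ψ) x = ap ψ x := by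
        rw [ap_eq, ap_eq]
        refine sum_congr rfl fun a ha => ?_
        rw [res_apply, if_pos ⟨a, ha, a, ha, le_rfl, le_rfl⟩]
      rw [e]; exact h
  rcases lt_abs.1 hφ with h | h
  · exact key φ.1 φ.2 h
  · refine key (-φ.1) (B.neg_mem_K φ.2) ?_
    have : ap (-φ.1) x = - ap φ.1 x := by
      have := ap_smul_left (-1) φ.1 x
      rw [neg_one_smul] at this
      rw [this]; push_cast; ring
    rw [this]; exact h

/-- **H3.** Exact pairs of every weight in every tail. -/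
theorem pairSupply {l : W} {h : ℕ → Vec} (hb : IsBlock l h) (hT : LemT h) :
    H50.PairSupply h 3072 := by
  classical
  intro w k₀
  obtain ⟨x, D, L, η, hR, hx1, hx2⟩ := exists_RIS hb hT k₀
  choose φ hφK hφs hφx using fun i => exists_half (hx1 i)
  set N := ell w with hN
  have hN1 : 1 ≤ N := one_le_ell w
  have hN0 : (0 : ℝ) < N := by exact_mod_cast hN1
  have hm0 : (0 : ℝ) < m N := m_posR N
  have hsucc : ∀ i j, i < j → SLt (φ i).support (φ j).support := by
    intro i j hij a ha b hb'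
    exact ran_ilt (hR.hs i j hij) a (hφs i ha) b (hφs j hb')
  have hne : ∀ i j, i ≠ j → ap (φ i) (x j) = 0 := by
    intro i j hij
    refine ap_eq_zero fun a ha hax => ?_
    have h1 := hφs i ha
    have h2 : a ∈ ran (x j).support := ⟨a, hax, a, hax, le_rfl, le_rfl⟩
    rcases lt_or_gt_of_ne hij with h | h
    · exact lt_irrefl _ (ran_ilt (hR.hs i j h) a h1 a h2)
    · exact lt_irrefl _ (ran_ilt (hR.hs j i h) a h2 a h1)
  set SF : Fn := ∑ i ∈ range N, φ i with hSF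
  set X : Vec := ∑ i ∈ range N, x i with hX
  set c : ℝ := (∑ i ∈ range N, ap (φ i) (x i)) / N with hc
  have hdiag : ap SF X = N * c := by
    have : ap SF X = ∑ i ∈ range N, ap (φ i) (x i) := by
      rw [hSF, ap_sum_left]
      refine sum_congr rfl fun i hi => ?_
      rw [hX, ap_sum_right]
      exact sum_eq_single_of_mem i hi fun j _ hj => hne i j (Ne.symm hj)
    rw [this, hc]
    field_simp
  have hchalf : 1 / 2 ≤ c := by
    rw [hc, le_div_iff₀ hN0]
    calc 1 / 2 * (N : ℝ) = ∑ _i ∈ range N, (1 / 2 : ℝ) := by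
          rw [sum_const, card_range, nsmul_eq_mul]; ring
      _ ≤ ∑ i ∈ range N, ap (φ i) (x i) := sum_le_sum fun i _ => (hφx i).le
  have hc0 : 0 < c := by linarith
  refine ⟨c⁻¹ • (((m N : ℝ) / N) • X), ((m N : ℚ)⁻¹) • SF, ?_, ?_, ?_, ?_, ?_⟩
  · refine Submodule.smul_mem _ _ (Submodule.smul_mem _ _ (Submodule.sum_mem _ fun i _ => hx2 i))
  · rw [nrm_smul_eq, abs_of_pos (inv_pos.2 hc0)]
    have h1 : nrm (((m N : ℝ) / N) • X) ≤ 1536 := hR.nrm_avg_le hN1 (card_range N)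
    have h2 : c⁻¹ ≤ 2 := by
      rw [inv_le_comm₀ hc0 (by norm_num)]; linarith
    have h3 := nrm_nonneg (((m N : ℝ) / N) • X)
    calc c⁻¹ * nrm (((m N : ℝ) / N) • X) ≤ 2 * 1536 :=
          mul_le_mul h2 h1 h3 (by norm_num)
      _ = 3072 := by norm_num
  · exact ⟨N, φ, le_rfl, fun i _ => hφK i, fun i j hij _ => hsucc i j hij, rfl⟩
  · have e1 : ∀ (r : ℝ) (y : Vec) (ψ : Fn), ap ψ (r • y) = r * ap ψ y := fun r y ψ =>
      map_smul (pr (toR ψ)) r y
    rw [e1, e1, ap_smul_left, hdiag]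
    push_cast
    field_simp
  · have hsupp : ∀ i ∈ range N, (x i).support ⊆
        (c⁻¹ • (((m N : ℝ) / N) • X)).support := by
      intro i hi a ha
      rw [Finsupp.mem_support_iff, Finsupp.smul_apply, Finsupp.smul_apply, smul_eq_mul,
        smul_eq_mul]
      have hXa : X a = x i a := by
        rw [hX, Finsupp.finsetSum_apply]
        refine sum_eq_single_of_mem i hi fun j _ hj => ?_
        by_contra hcon
        have hja := Finsupp.mem_support_iff.2 hcon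
        rcases lt_or_gt_of_ne hj with h | h
        · exact lt_irrefl _ (hR.hs j i h a hja a ha)
        · exact lt_irrefl _ (hR.hs i j h a ha a hja)
      rw [hXa]
      have := Finsupp.mem_support_iff.1 ha
      exact mul_ne_zero (inv_ne_zero hc0.ne') (mul_ne_zero (div_ne_zero hm0.ne' hN0.ne') this)
    intro a ha
    have ha1 : (((m N : ℚ)⁻¹) • SF) a ≠ 0 := Finsupp.mem_support_iff.1 ha
    rw [Finsupp.smul_apply, smul_eq_mul, hSF, Finsupp.finsetSum_apply] at ha1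
    obtain ⟨i, hi, hia⟩ := exists_ne_zero_of_sum_ne_zero (right_ne_zero_of_mul ha1)
    obtain ⟨b, hb1, b', hb2, h1, h2⟩ := hφs i (Finsupp.mem_support_iff.2 hia)
    exact ⟨b, hsupp i hi hb1, b', hsupp i hi hb2, h1, h2⟩

end Vale.Agent.P129.H487
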