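import Vale.Agent.P129.H487.Wt

/-!
# P129, part D: elementary facts on the pairing, restrictions, coefficients
-/

namespace Vale.Agent.P129.H487

open Finset Vale.Agent.P129.H448

theorem ap_eq (φ : Fn) (x : Vec) : ap φ x = ∑ a ∈ x.support, x a * (φ a : ℝ) := by
  simp [ap, pr, Finsupp.linearCombination_apply, Finsupp.sum, toR]

theorem ap_add_left (φ ψ : Fn) (x : Vec) : ap (φ + ψ) x = ap φ x + ap ψ x := by
  simp only [ap_eq, Finsupp.add_apply, Rat.cast_add, mul_add, sum_add_distrib]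

theorem ap_smul_left (q : ℚ) (φ : Fn) (x : Vec) : ap (q • φ) x = (q : ℝ) * ap φ x := by
  simp only [ap_eq, Finsupp.smul_apply, smul_eq_mul, Rat.cast_mul, mul_sum]
  exact sum_congr rfl fun a _ => by ring

theorem ap_zero_left (x : Vec) : ap 0 x = 0 := by simp [ap_eq]

theorem ap_sum_left {α : Type*} (J : Finset α) (φ : α → Fn) (x : Vec) :
    ap (∑ j ∈ J, φ j) x = ∑ j ∈ J, ap (φ j) x := by
  classical
  induction J using Finset.induction_on with
  | empty => simp [ap_zero_left]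
  | insert a s ha ih => rw [sum_insert ha, sum_insert ha, ap_add_left, ih]

theorem ap_add_right (φ : Fn) (x y : Vec) : ap φ (x + y) = ap φ x + ap φ y := map_add _ _ _

theorem ap_sum_right {α : Type*} (J : Finset α) (φ : Fn) (x : α → Vec) :
    ap φ (∑ j ∈ J, x j) = ∑ j ∈ J, ap φ (x j) := map_sum _ _ _

theorem ap_eq_zero {φ : Fn} {x : Vec} (h : ∀ a ∈ φ.support, a ∉ x.support) : ap φ x = 0 := by
  rw [ap_eq]
  refine sum_eq_zero fun a ha => ?_
  have : φ a = 0 := by
    by_contra hne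
    exact h a (Finsupp.mem_support_iff.2 hne) ha
  simp [this]

theorem res_apply {R : Type} [Zero R] (I : Set W) (x : W →₀ R) (a : W) [Decidable (a ∈ I)] :
    res I x a = if a ∈ I then x a else 0 := by
  classical
  unfold res
  rw [Finsupp.filter_apply]
  split_ifs <;> rfl

theorem support_res_subset {R : Type} [Zero R] (I : Set W) (x : W →₀ R) :
    (res I x).support ⊆ x.support := by
  classical
  unfold res
  intro a ha
  rw [Finsupp.support_filter, mem_filter] at ha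
  exact ha.1

theorem res_res {R : Type} [Zero R] (I J : Set W) (x : W →₀ R) :
    res I (res J x) = res (J ∩ I) x := by
  classical
  ext a
  simp only [res_apply, Set.mem_inter_iff]
  by_cases h1 : a ∈ I <;> by_cases h2 : a ∈ J <;> simp [h1, h2]

theorem res_smul (I : Set W) (q : ℚ) (φ : Fn) : res I (q • φ) = q • res I φ := by
  classical
  ext a
  simp only [res_apply, Finsupp.smul_apply]
  split_ifs <;> simp

theorem res_sum {α : Type*} (I : Set W) (J : Finset α) (φ : α → Fn) :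
    res I (∑ j ∈ J, φ j) = ∑ j ∈ J, res I (φ j) := by
  classical
  ext a
  simp only [res_apply, Finsupp.finsetSum_apply]
  split_ifs with h
  · rfl
  · simp

/-- the action of a functional only sees the vector on the range of its support -/
theorem ap_res_ran (φ : Fn) (x : Vec) : ap φ x = ap φ (res (ran φ.support) x) := by
  classical
  rw [ap_eq, ap_eq]
  have h1 : ∀ a, x a * (φ a : ℝ) = res (ran φ.support) x a * (φ a : ℝ) := by
    intro a
    rw [res_apply]
    split_ifs with h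
    · rfl
    · have : φ a = 0 := by
        by_contra hne
        exact h ⟨a, Finsupp.mem_support_iff.2 hne, a, Finsupp.mem_support_iff.2 hne, le_rfl, le_rfl⟩
      simp [this]
  rw [sum_congr rfl fun a _ => h1 a]
  symm
  refine sum_subset (support_res_subset _ _) fun a _ ha => ?_
  rw [Finsupp.notMem_support_iff.1 ha, zero_mul]

theorem ran_ordConnected (s : Finset W) : (ran s).OrdConnected := by
  constructor
  rintro a ⟨b, hb, c, hc, hba, hac⟩ a' ⟨b', hb', c', hc', hba', hac'⟩ z ⟨h1, h2⟩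
  exact ⟨b, hb, c', hc', hba.trans h1, h2.trans hac'⟩

theorem ran_ilt {s t : Finset W} (h : SLt s t) : ILt (ran s) (ran t) := by
  rintro a ⟨b, hb, c, hc, hba, hac⟩ a' ⟨b', hb', c', hc', hba', hac'⟩
  exact lt_of_le_of_lt hac (lt_of_lt_of_le (h c hc b' hb') hba')

/-! ### Restrictions stay in the norming set -/

theorem wtd_res_aux {A : Set Fn} {I : Set W} (hA : ∀ φ ∈ A, res I φ ∈ A) {n : ℕ} {φ : Fn}
    (h : φ ∈ Wtd A n) : res I φ ∈ Wtd A n := by
  obtain ⟨d, ψ, hd, hψ, hs, rfl⟩ := h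
  refine ⟨d, fun i => res I (ψ i), hd, fun i hi => hA _ (hψ i hi), fun i j hij hj => ?_, ?_⟩
  · intro a ha b hb
    exact hs i j hij hj a (support_res_subset _ _ ha) b (support_res_subset _ _ hb)
  · rw [res_smul, res_sum]

theorem Kst_mono_succ (s : ℕ) : Kst s ⊆ Kst (s + 1) := fun φ h => Or.inl (Or.inl h)

theorem Kst_mono : Monotone Kst := monotone_nat_of_le_succ Kst_mono_succ

theorem Kst_subset_K (s : ℕ) : Kst s ⊆ K := Set.subset_iUnion Kst s

theorem wtd_mono {A B : Set Fn} (h : A ⊆ B) {n : ℕ} : Wtd A n ⊆ Wtd B n := by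
  rintro φ ⟨d, ψ, hd, hψ, hs, rfl⟩
  exact ⟨d, ψ, hd, fun i hi => h (hψ i hi), hs, rfl⟩

theorem isSpecial_mono {A B : Set Fn} (h : A ⊆ B) {Φ : ℕ → Node} {n : ℕ} (hs : IsSpecial A Φ n) :
    IsSpecial B Φ n := ⟨hs.cod, fun k hk => wtd_mono h (hs.wtd k hk)⟩

theorem ok_mono {A B : Set Fn} (h : A ⊆ B) {s : Seg} (hs : s.Ok A) : s.Ok B :=
  ⟨isSpecial_mono h hs.sp, hs.hJ, hs.hI⟩

theorem res_mem_Kst {I : Set W} (hI : I.OrdConnected) (s : ℕ) : ∀ φ ∈ Kst s, res I φ ∈ Kst s := by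
  classical
  induction s with
  | zero =>
    rintro φ (rfl | ⟨a, h⟩)
    · left; ext b; simp [res_apply]
    · have key : ∀ q : ℚ, res I (Finsupp.single a q) = 0 ∨
          res I (Finsupp.single a q) = Finsupp.single a q := by
        intro q
        by_cases ha : a ∈ I
        · right
          ext b
          rw [res_apply]
          split_ifs with hb
          · rfl
          · rw [Finsupp.single_apply, if_neg]; rintro rfl; exact hb ha
        · left
          ext b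
          rw [res_apply]
          split_ifs with hb
          · rw [Finsupp.single_apply, if_neg, Finsupp.zero_apply]; rintro rfl; exact ha hb
          · rfl
      rcases h with rfl | rfl
      · rcases key 1 with h | h <;> rw [h]
        · exact Or.inl rfl
        · exact Or.inr ⟨a, Or.inl rfl⟩
      · rcases key (-1) with h | h <;> rw [h]
        · exact Or.inl rfl
        · exact Or.inr ⟨a, Or.inr rfl⟩
  | succ s ih =>
    rintro φ ((h | ⟨n, hn, h⟩) | ⟨N, sg, ε, hadm, rfl⟩)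
    · exact Or.inl (Or.inl (ih φ h))
    · exact Or.inl (Or.inr ⟨n, hn, wtd_res_aux ih h⟩)
    · right
      refine ⟨N, fun r => { sg r with I := (sg r).I ∩ I }, ε, ?_, ?_⟩
      · exact
          { ok := fun r hr => ⟨(hadm.ok r hr).sp, (hadm.ok r hr).hJ, (hadm.ok r hr).hI.inter hI⟩
            sign := hadm.sign
            disj := hadm.disj
            card := hadm.card
            low := hadm.low }
      · rw [res_sum]
        refine sum_congr rfl fun r _ => ?_
        rw [res_smul]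
        congr 1
        unfold Seg.fn
        rw [res_res]
        rfl

theorem wtd_res {I : Set W} (hI : I.OrdConnected) {s n : ℕ} {φ : Fn} (h : φ ∈ Wtd (Kst s) n) :
    res I φ ∈ Wtd (Kst s) n := wtd_res_aux (res_mem_Kst hI s) h

/-! ### Coefficients -/

theorem abs_wtd_apply_le {A : Set Fn} (hA : ∀ ψ ∈ A, ∀ a, |ψ a| ≤ 1) {n : ℕ} {φ : Fn}
    (h : φ ∈ Wtd A n) (a : W) : |φ a| ≤ ((m n : ℕ) : ℚ)⁻¹ := by
  classical
  obtain ⟨d, ψ, hd, hψ, hs, rfl⟩ := h
  have hm0 : (0 : ℚ) ≤ ((m n : ℕ) : ℚ)⁻¹ := by positivity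
  rw [Finsupp.smul_apply, smul_eq_mul, abs_mul, abs_of_nonneg hm0, Finsupp.finsetSum_apply]
  refine mul_le_of_le_one_right hm0 ?_
  by_cases hex : ∃ i ∈ range d, ψ i a ≠ 0
  · obtain ⟨i, hi, hia⟩ := hex
    rw [sum_eq_single_of_mem i hi]
    · exact hA _ (hψ i (mem_range.1 hi)) a
    · intro j hj hji
      by_contra hne
      rcases lt_or_gt_of_ne hji with h | h
      · exact lt_irrefl _ (hs j i h (mem_range.1 hi) a (Finsupp.mem_support_iff.2 hne) a
          (Finsupp.mem_support_iff.2 hia))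
      · exact lt_irrefl _ (hs i j h (mem_range.1 hj) a (Finsupp.mem_support_iff.2 hia) a
          (Finsupp.mem_support_iff.2 hne))
  · push Not at hex
    rw [sum_eq_zero hex]; simp

/-- index pairs of the nodes of a family of segments -/
noncomputable def pairs (N : ℕ) (s : ℕ → Seg) : Finset (Σ _ : ℕ, ℕ) :=
  (range N).sigma fun r => (s r).nodes

/-- the weight index of a node -/
def om (s : ℕ → Seg) (p : Σ _ : ℕ, ℕ) : ℕ := ((s p.1).Φ p.2).w

/-- the (restricted) functional of a node -/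
noncomputable def nd (s : ℕ → Seg) (p : Σ _ : ℕ, ℕ) : Fn := res (s p.1).I ((s p.1).Φ p.2).φ

theorem mem_pairs {N : ℕ} {s : ℕ → Seg} {p : Σ _ : ℕ, ℕ} :
    p ∈ pairs N s ↔ p.1 < N ∧ p.2 ∈ (s p.1).nodes := by
  simp [pairs]

theorem mem_nodes {s : Seg} {k : ℕ} : k ∈ s.nodes ↔ k < s.n ∧ (s.Φ k).w ∈ s.J := by
  classical
  simp [Seg.nodes]

theorem om_injOn {A : Set Fn} {lo N : ℕ} {s : ℕ → Seg} {ε : ℕ → ℚ} (h : H448.Adm A lo N s ε) :
    Set.InjOn (om s) (pairs N s) := by
  classical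
  rintro ⟨r, k⟩ hp ⟨r', k'⟩ hp' he
  have h1 := mem_pairs.1 (Finset.mem_coe.1 hp)
  have h2 := mem_pairs.1 (Finset.mem_coe.1 hp')
  simp only at h1 h2
  have hrr : r = r' := by
    by_contra hne
    have h5 : om s ⟨r, k⟩ ∈ (s r).idx := mem_image.2 ⟨k, h1.2, rfl⟩
    have h6 : om s ⟨r, k⟩ ∈ (s r').idx := by rw [he]; exact mem_image.2 ⟨k', h2.2, rfl⟩
    exact Finset.disjoint_left.1 (h.disj r h1.1 r' h2.1 hne) h5 h6
  subst hrr
  have h3 := mem_nodes.1 h1.2
  have h4 := mem_nodes.1 h2.2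
  have := ((h.ok r h1.1).sp.cod.of_w_eq (h.ok r h1.1).sp.cod h3.1 h4.1 he).1
  rw [this]

theorem ap_fn (s : Seg) (x : Vec) : ap s.fn x = ∑ k ∈ s.nodes, ap (res s.I (s.Φ k).φ) x := by
  unfold Seg.fn
  rw [res_sum, ap_sum_left]

theorem fn_apply (s : Seg) (a : W) : s.fn a = ∑ k ∈ s.nodes, res s.I (s.Φ k).φ a := by
  unfold Seg.fn
  rw [res_sum, Finsupp.finsetSum_apply]

theorem nd_mem {A : Set Fn} {lo N : ℕ} {s : ℕ → Seg} {ε : ℕ → ℚ} (h : H448.Adm A lo N s ε)
    (hA : ∀ I : Set W, I.OrdConnected → ∀ φ ∈ A, res I φ ∈ A) {p : Σ _ : ℕ, ℕ}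
    (hp : p ∈ pairs N s) : nd s p ∈ Wtd A (ell (om s p)) := by
  have h1 := mem_pairs.1 hp
  have h2 := mem_nodes.1 h1.2
  exact wtd_res_aux (hA _ (h.ok _ h1.1).hI) ((h.ok _ h1.1).sp.wtd _ h2.1)

theorem sum_inv_ell_le (P : Finset (Σ _ : ℕ, ℕ)) (s : ℕ → Seg) (h : Set.InjOn (om s) P) (v : ℕ)
    (hv : ∀ p ∈ P, v ≤ om s p) : ∑ p ∈ P, ((m (ell (om s p)) : ℕ) : ℝ)⁻¹ ≤
      2 * ((m (ell v) : ℕ) : ℝ)⁻¹ :=
  sum_inv_le' (M := fun w => ((m (ell w) : ℕ) : ℝ)) (fun w => m_posR _) geo_ell P (om s) h v hv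

theorem abs_apply_le (s : ℕ) : ∀ φ ∈ Kst s, ∀ a, |φ a| ≤ 1 := by
  classical
  induction s with
  | zero =>
    rintro φ (rfl | ⟨b, rfl | rfl⟩) a
    · simp
    · rw [Finsupp.single_apply]; split_ifs <;> simp
    · rw [Finsupp.single_apply]; split_ifs <;> simp
  | succ s ih =>
    rintro φ ((h | ⟨n, hn, h⟩) | ⟨N, sg, ε, hadm, rfl⟩) a
    · exact ih φ h a
    · refine (abs_wtd_apply_le ih h a).trans ?_
      refine inv_le_one_of_one_le₀ ?_
      exact_mod_cast m_pos n
    · have e1 : (∑ r ∈ range N, ε r • (sg r).fn) a =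
          ∑ p ∈ pairs N sg, ε p.1 * nd sg p a := by
        rw [Finsupp.finsetSum_apply, pairs, sum_sigma]
        refine sum_congr rfl fun r _ => ?_
        rw [Finsupp.smul_apply, smul_eq_mul, fn_apply, mul_sum]
        rfl
      have e2 : |∑ p ∈ pairs N sg, ε p.1 * nd sg p a| ≤
          ∑ p ∈ pairs N sg, (((m (ell (om sg p)) : ℕ) : ℚ))⁻¹ := by
        refine (abs_sum_le_sum_abs _ _).trans (sum_le_sum fun p hp => ?_)
        have h1 : |ε p.1| = 1 := by
          rcases hadm.sign p.1 (mem_pairs.1 hp).1 with h | h <;> rw [h] <;> simp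
        rw [abs_mul, h1, one_mul]
        exact abs_wtd_apply_le ih (nd_mem hadm (fun I hI => res_mem_Kst hI s) hp) a
      have e3 := sum_inv_ell_le (pairs N sg) sg (om_injOn hadm) 0 fun _ _ => Nat.zero_le _
      have e4 : (((∑ p ∈ pairs N sg, (((m (ell (om sg p)) : ℕ) : ℚ))⁻¹ : ℚ)) : ℝ) ≤ 1 := by
        push_cast
        refine e3.trans ?_
        have : (64 : ℝ) ≤ (m (ell 0) : ℕ) := by exact_mod_cast sixtyfour_le_m _
        have := inv_anti₀ (by norm_num) this
        linarith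
      rw [e1]
      refine e2.trans ?_
      exact_mod_cast e4

theorem abs_apply_le_K {φ : Fn} (h : φ ∈ K) (a : W) : |φ a| ≤ 1 := by
  obtain ⟨s, hs⟩ := Set.mem_iUnion.1 h
  exact abs_apply_le s φ hs a

theorem l1_nonneg (x : Vec) : 0 ≤ l1 x := sum_nonneg fun _ _ => abs_nonneg _

theorem abs_ap_le_of_apply {φ : Fn} {c : ℝ} (h : ∀ a, |(φ a : ℝ)| ≤ c) (x : Vec) :
    |ap φ x| ≤ c * l1 x := by
  rw [ap_eq, l1, mul_sum]
  refine (abs_sum_le_sum_abs _ _).trans (sum_le_sum fun a _ => ?_)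
  rw [abs_mul, mul_comm]
  exact mul_le_mul_of_nonneg_right (h a) (abs_nonneg _)

theorem abs_ap_le_l1 {φ : Fn} (h : φ ∈ K) (x : Vec) : |ap φ x| ≤ l1 x := by
  have := abs_ap_le_of_apply (c := 1) (φ := φ) (fun a => by exact_mod_cast abs_apply_le_K h a) x
  simpa using this

theorem bddAbove_nrm (x : Vec) : BddAbove (Set.range fun φ : K => |ap φ.1 x|) :=
  ⟨l1 x, by rintro _ ⟨φ, rfl⟩; exact abs_ap_le_l1 φ.2 x⟩

theorem abs_ap_le_nrm {φ : Fn} (h : φ ∈ K) (x : Vec) : |ap φ x| ≤ nrm x :=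
  le_ciSup (bddAbove_nrm x) (⟨φ, h⟩ : K)

/-- A weighted functional on a vector. -/
theorem abs_ap_wtd_le {s n : ℕ} {φ : Fn} (h : φ ∈ Wtd (Kst s) n) (x : Vec) :
    |ap φ x| ≤ (m n : ℝ)⁻¹ * l1 x := by
  refine abs_ap_le_of_apply (fun a => ?_) x
  have := abs_wtd_apply_le (abs_apply_le s) h a
  have h2 : ((|φ a| : ℚ) : ℝ) ≤ (((m n : ℕ) : ℚ)⁻¹ : ℚ) := by exact_mod_cast this
  rw [Rat.cast_abs] at h2
  simpa using h2

end Vale.Agent.P129.H487
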