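import Vale.Agent.P129.H487.Ap

/-!
# P129, part D: the upper estimate (Lemma U)

For a rapidly increasing sequence of good vectors `x i` every functional of the norming set is at
most `8 G(|A|)` on `∑ i ∈ A, x i`.
-/

namespace Vale.Agent.P129.H487

open Finset Vale.Agent.P129.H448

/-- The hypotheses of Lemma U. -/
structure RIS (x : ℕ → Vec) (D L : ℕ → ℕ) (η : ℕ → ℝ) : Prop where
  hs : ∀ i j, i < j → SLt (x i).support (x j).support
  hDL : ∀ i, D i < L i
  hLD : ∀ i, L i ≤ D (i + 1)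
  h1 : ∀ i, nrm (x i) ≤ 1
  h2 : ∀ i, AvgBound (D i) (x i) 3
  h3 : ∀ i, l1 (x i) / m (L i) ≤ (1 / 2) ^ (i + 4)
  h5 : ∀ i, ∀ s : Seg, s.Ok K → (∀ w ∈ s.idx, D i < ell w ∧ ell w < L i) →
    |ap s.fn (x i)| ≤ η i
  h6 : ∀ i, (L i : ℝ) * η (i + 1) ≤ (1 / 2) ^ (i + 3)
  heta : ∀ i, 0 ≤ η i

variable {x : ℕ → Vec} {D L : ℕ → ℕ} {η : ℕ → ℝ}

theorem RIS.D_mono (h : RIS x D L η) : Monotone D :=
  monotone_nat_of_le_succ fun i => ((h.hDL i).le).trans (h.hLD i)

theorem RIS.L_mono (h : RIS x D L η) : Monotone L :=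
  monotone_nat_of_le_succ fun i => (h.hLD i).trans (h.hDL (i + 1)).le

theorem sum_half_pow_le (A : Finset ℕ) (c : ℕ) :
    ∑ i ∈ A, (1 / 2 : ℝ) ^ (i + c) ≤ 2 * (1 / 2) ^ c := by
  have h1 : ∑ i ∈ A, (1 / 2 : ℝ) ^ (i + c) = (1 / 2) ^ c * ∑ i ∈ A, (1 / 2 : ℝ) ^ i := by
    rw [mul_sum]; exact sum_congr rfl fun i _ => by rw [pow_add]; ring
  have h2 := summable_geometric_two.sum_le_tsum A (fun _ _ => by positivity)
  rw [tsum_geometric_two] at h2
  rw [h1, mul_comm]
  exact mul_le_mul_of_nonneg_right h2 (by positivity)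

/-- The low part of a node. -/
theorem node_est (h : RIS x D L η) {s : ℕ}
    (ih : ∀ φ ∈ Kst s, ∀ A : Finset ℕ, |ap φ (∑ i ∈ A, x i)| ≤ 8 * GG A.card)
    {n : ℕ} (hn : 1 ≤ n) {φ : Fn} (hφ : φ ∈ Wtd (Kst s) n) (A : Finset ℕ)
    (hA : ∀ i ∈ A, n ≤ D i) {t : ℕ} (ht : A.card ≤ t) :
    m n * |ap φ (∑ i ∈ A, x i)| ≤ 8 * t ∧
    m n * |ap φ (∑ i ∈ A, x i)| ≤ 8 * (2 * ff (2 * n) * GG t) ∧
    ((2 * n) ^ 2 ≤ t → m n * |ap φ (∑ i ∈ A, x i)| ≤ 8 * (4 * GG t)) := by
  obtain ⟨d, ψ, hd, hψ, hs, rfl⟩ := hφ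
  have hm := m_posR n
  have e1 : (m n : ℝ) * |ap (((m n : ℚ)⁻¹) • ∑ i ∈ range d, ψ i) (∑ i ∈ A, x i)| =
      |∑ j ∈ range d, pr (toR (ψ j)) (∑ i ∈ A, x i)| := by
    rw [ap_smul_left, ap_sum_left, abs_mul]
    have : |(((m n : ℚ)⁻¹ : ℚ) : ℝ)| = (m n : ℝ)⁻¹ := by
      push_cast
      rw [abs_of_pos (inv_pos.2 hm)]
    rw [this, ← mul_assoc, mul_inv_cancel₀ hm.ne', one_mul]
    rfl
  rw [e1]
  refine node_bound x A d (fun j => pr (toR (ψ j)))
    (fun j i => ∃ a ∈ (ψ j).support, a ∈ (x i).support) ?_ ?_ (by norm_num) ?_ ?_ hn hd ht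
  · intro j _ i _ hR
    push Not at hR
    exact ap_eq_zero hR
  · rintro j j' i i' hj hj' - - hi ⟨a, ha, ha'⟩ ⟨b, hb, hb'⟩
    exact lt_asymm (h.hs i i' hi a ha' b hb') (hs j j' hj hj' b hb a ha)
  · intro j hj B _
    exact ih _ (hψ j hj) B
  · intro i hi
    have := h.h2 i d (fun j => ran (ψ j).support) (hd.trans (hA i hi))
      (fun j _ => ran_ordConnected _) (fun j j' hj hj' => ran_ilt (hs j j' hj hj'))
    refine le_trans (sum_le_sum fun j hj => ?_) this
    change |ap (ψ j) (x i)| ≤ _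
    rw [ap_res_ran]
    exact abs_ap_le_nrm (Kst_subset_K s (hψ j (mem_range.1 hj))) _

/-- Lemma U for a node of weight `n`. -/
theorem k2_est (h : RIS x D L η) {s : ℕ}
    (ih : ∀ φ ∈ Kst s, ∀ A : Finset ℕ, |ap φ (∑ i ∈ A, x i)| ≤ 8 * GG A.card)
    {n : ℕ} (hn : 1 ≤ n) {φ : Fn} (hφ : φ ∈ Wtd (Kst s) n) (hK : φ ∈ K) {A : Finset ℕ}
    (hne : A.Nonempty) : |ap φ (∑ i ∈ A, x i)| ≤ 8 * GG A.card := by
  classical
  have hG := one_le_GG hne.card_pos
  set A1 := A.filter fun i => n ≤ D i with hA1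
  set A2 := (A.filter fun i => ¬ n ≤ D i).filter fun i => L i ≤ n with hA2
  set A3 := (A.filter fun i => ¬ n ≤ D i).filter fun i => ¬ L i ≤ n with hA3
  have hsplit : ∑ i ∈ A, x i = ∑ i ∈ A1, x i + (∑ i ∈ A2, x i + ∑ i ∈ A3, x i) := by
    rw [hA2, hA3, sum_filter_add_sum_filter_not, hA1, sum_filter_add_sum_filter_not]
  have e1 : |ap φ (∑ i ∈ A1, x i)| ≤ 1 / 2 * GG A.card := by
    have h1 := (node_est h ih hn hφ A1 (fun i hi => (mem_filter.1 hi).2)
      (t := A.card) (card_filter_le _ _)).2.1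
    have h2 := m_ge_ff hn
    have h3 := m_posR n
    have h4 : 0 ≤ GG A.card := GG_nonneg _
    have h5 : (m n : ℝ) * |ap φ (∑ i ∈ A1, x i)| ≤ m n * (1 / 2 * GG A.card) := by
      refine h1.trans ?_
      nlinarith
    exact le_of_mul_le_mul_left h5 h3
  have e2 : |ap φ (∑ i ∈ A2, x i)| ≤ 1 / 8 := by
    rw [ap_sum_right]
    refine (abs_sum_le_sum_abs _ _).trans ?_
    have : ∀ i ∈ A2, |ap φ (x i)| ≤ (1 / 2 : ℝ) ^ (i + 4) := by
      intro i hi
      have hLn : L i ≤ n := (mem_filter.1 hi).2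
      refine (abs_ap_wtd_le hφ (x i)).trans ?_
      refine le_trans ?_ (h.h3 i)
      rw [div_eq_inv_mul]
      refine mul_le_mul_of_nonneg_right ?_ (l1_nonneg _)
      exact inv_anti₀ (m_posR _) (by exact_mod_cast m_mono hLn)
    refine (sum_le_sum this).trans ((sum_half_pow_le A2 4).trans ?_)
    norm_num
  have e3 : |ap φ (∑ i ∈ A3, x i)| ≤ 1 := by
    rw [ap_sum_right]
    refine (abs_sum_le_sum_abs _ _).trans ?_
    have hcard : A3.card ≤ 1 := by
      rw [Finset.card_le_one]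
      intro a ha b hb
      rw [hA3, mem_filter, mem_filter] at ha hb
      by_contra hne
      rcases lt_or_gt_of_ne hne with hlt | hlt
      · have := h.hLD a
        have := h.D_mono (show a + 1 ≤ b from hlt)
        omega
      · have := h.hLD b
        have := h.D_mono (show b + 1 ≤ a from hlt)
        omega
    calc ∑ i ∈ A3, |ap φ (x i)| ≤ ∑ i ∈ A3, (1 : ℝ) :=
          sum_le_sum fun i _ => (abs_ap_le_nrm hK (x i)).trans (h.h1 i)
      _ = A3.card := by rw [sum_const, nsmul_eq_mul, mul_one]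
      _ ≤ 1 := by exact_mod_cast hcard
  rw [hsplit, ap_add_right, ap_add_right]
  have t1 := abs_add_le (ap φ (∑ i ∈ A1, x i)) (ap φ (∑ i ∈ A2, x i) + ap φ (∑ i ∈ A3, x i))
  have t2 := abs_add_le (ap φ (∑ i ∈ A2, x i)) (ap φ (∑ i ∈ A3, x i))
  linarith

/-- The action of an admissible sum in terms of its nodes. -/
theorem ap_sums {N : ℕ} {sg : ℕ → Seg} {ε : ℕ → ℚ} (y : Vec) :
    ap (∑ r ∈ range N, ε r • (sg r).fn) y =
      ∑ p ∈ pairs N sg, (ε p.1 : ℝ) * ap (nd sg p) y := by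
  rw [ap_sum_left, pairs, sum_sigma]
  refine sum_congr rfl fun r _ => ?_
  rw [ap_smul_left, ap_fn, mul_sum]
  rfl

/-- Lemma U for an admissible sum of segments. -/
theorem k3_est (h : RIS x D L η) {s : ℕ}
    (ih : ∀ φ ∈ Kst s, ∀ A : Finset ℕ, |ap φ (∑ i ∈ A, x i)| ≤ 8 * GG A.card)
    {N : ℕ} {sg : ℕ → Seg} {ε : ℕ → ℚ} (hadm : H448.Adm (Kst s) 0 N sg ε)
    (hK : (∑ r ∈ range N, ε r • (sg r).fn) ∈ K) {A : Finset ℕ}
    (hne : A.Nonempty) :
    |ap (∑ r ∈ range N, ε r • (sg r).fn) (∑ i ∈ A, x i)| ≤ 8 * GG A.card := by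
  classical
  have hG := one_le_GG hne.card_pos
  set g : Fn := ∑ r ∈ range N, ε r • (sg r).fn with hg
  set P := pairs N sg with hP
  have hinj : Set.InjOn (om sg) P := om_injOn hadm
  have hsign : ∀ p ∈ P, |(ε p.1 : ℝ)| = 1 := by
    intro p hp
    rcases hadm.sign p.1 (mem_pairs.1 hp).1 with h | h <;> rw [h] <;> simp
  have hNom : ∀ p ∈ P, N ≤ om sg p := by
    intro p hp
    obtain ⟨h1, h2⟩ := mem_pairs.1 hp
    exact hadm.card p.1 h1 _ (mem_image.2 ⟨p.2, h2, rfl⟩)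
  have hnd : ∀ p ∈ P, nd sg p ∈ Wtd (Kst s) (ell (om sg p)) := fun p hp =>
    nd_mem hadm (fun I hI => res_mem_Kst hI s) hp
  -- the bad index
  set A3 := A.filter fun i => N < L i ∧ ∀ j, j + 1 = i → L j < N with hA3
  set A' := A.filter fun i => ¬ (N < L i ∧ ∀ j, j + 1 = i → L j < N) with hA'
  have hsplit : ∑ i ∈ A, x i = ∑ i ∈ A3, x i + ∑ i ∈ A', x i := by
    rw [hA3, hA', sum_filter_add_sum_filter_not]
  have e3 : |ap g (∑ i ∈ A3, x i)| ≤ 1 := by
    rw [ap_sum_right]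
    refine (abs_sum_le_sum_abs _ _).trans ?_
    have key : ∀ a b, a < b → ¬ (N < L a ∧ ∀ j, j + 1 = b → L j < N) := by
      rintro a b hab ⟨h1, h2⟩
      have h3 := h2 (b - 1) (by omega)
      have h4 := h.L_mono (show a ≤ b - 1 by omega)
      omega
    have hcard : A3.card ≤ 1 := by
      rw [Finset.card_le_one]
      intro a ha b hb
      rw [hA3, mem_filter] at ha hb
      by_contra hne
      rcases lt_or_gt_of_ne hne with hlt | hlt
      · exact key a b hlt ⟨ha.2.1, hb.2.2⟩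
      · exact key b a hlt ⟨hb.2.1, ha.2.2⟩
    calc ∑ i ∈ A3, |ap g (x i)| ≤ ∑ i ∈ A3, (1 : ℝ) :=
          sum_le_sum fun i _ => (abs_ap_le_nrm hK (x i)).trans (h.h1 i)
      _ = A3.card := by rw [sum_const, nsmul_eq_mul, mul_one]
      _ ≤ 1 := by exact_mod_cast hcard
  -- low, window, high
  set low : ℕ → Finset (Σ _ : ℕ, ℕ) := fun i => P.filter fun p => ell (om sg p) ≤ D i with hlow
  set win : ℕ → Finset (Σ _ : ℕ, ℕ) := fun i =>
    (P.filter fun p => ¬ ell (om sg p) ≤ D i).filter fun p => ell (om sg p) < L i with hwin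
  set high : ℕ → Finset (Σ _ : ℕ, ℕ) := fun i =>
    (P.filter fun p => ¬ ell (om sg p) ≤ D i).filter fun p => ¬ ell (om sg p) < L i with hhigh
  have hdec : ∀ i, ap g (x i) = ∑ p ∈ low i, (ε p.1 : ℝ) * ap (nd sg p) (x i) +
      (∑ p ∈ win i, (ε p.1 : ℝ) * ap (nd sg p) (x i) +
        ∑ p ∈ high i, (ε p.1 : ℝ) * ap (nd sg p) (x i)) := by
    intro i
    rw [hg, ap_sums, hwin, hhigh]
    simp only
    rw [sum_filter_add_sum_filter_not, hlow]
    simp only
    rw [sum_filter_add_sum_filter_not]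
  -- the window part
  have ewin : ∀ i ∈ A', |∑ p ∈ win i, (ε p.1 : ℝ) * ap (nd sg p) (x i)| ≤
      (1 / 2 : ℝ) ^ (i + 2) := by
    intro i hi
    rw [hA', mem_filter] at hi
    by_cases hNL : N < L i
    · have : ∃ j, j + 1 = i ∧ N ≤ L j := by
        by_contra hcon
        push Not at hcon
        exact hi.2 ⟨hNL, hcon⟩
      obtain ⟨j, rfl, hj⟩ := this
      set J' : Set ℕ := {w | D (j + 1) < ell w ∧ ell w < L (j + 1)} with hJ'
      have hJ'c : J'.OrdConnected := by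
        constructor
        rintro a ⟨ha1, ha2⟩ b ⟨hb1, hb2⟩ z ⟨h1, h2⟩
        exact ⟨lt_of_lt_of_le ha1 (ell_strictMono.monotone h1),
          lt_of_le_of_lt (ell_strictMono.monotone h2) hb2⟩
      set sg' : ℕ → Seg := fun r => { sg r with J := (sg r).J ∩ J' } with hsg'
      have e : ∑ p ∈ win (j + 1), (ε p.1 : ℝ) * ap (nd sg p) (x (j + 1)) =
          ∑ r ∈ range N, (ε r : ℝ) * ap (sg' r).fn (x (j + 1)) := by
        have e1 : win (j + 1) = pairs N sg' := by
          ext ⟨r, k⟩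
          simp only [hwin, hP, mem_filter, mem_pairs, mem_nodes, hsg', Set.mem_inter_iff, hJ',
            Set.mem_ofPred_eq, om]
          constructor
          · rintro ⟨⟨⟨h1, h2, h3⟩, h4⟩, h5⟩
            exact ⟨h1, h2, h3, by omega, h5⟩
          · rintro ⟨h1, h2, h3, h4, h5⟩
            exact ⟨⟨⟨h1, h2, h3⟩, by omega⟩, h5⟩
        rw [e1, pairs, sum_sigma]
        refine sum_congr rfl fun r _ => ?_
        rw [ap_fn, mul_sum]
        rfl
      rw [e]
      have hb : ∀ r ∈ range N, |(ε r : ℝ) * ap (sg' r).fn (x (j + 1))| ≤ η (j + 1) := by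
        intro r hr
        rw [mem_range] at hr
        have h1 : |(ε r : ℝ)| = 1 := by
          rcases hadm.sign r hr with h | h <;> rw [h] <;> simp
        rw [abs_mul, h1, one_mul]
        refine h.h5 (j + 1) (sg' r) ?_ ?_
        · have := ok_mono (Kst_subset_K s) (hadm.ok r hr)
          exact ⟨this.sp, this.hJ.inter hJ'c, this.hI⟩
        · intro w hw
          unfold Seg.idx at hw
          obtain ⟨k, hk, rfl⟩ := mem_image.1 hw
          exact (mem_nodes.1 hk).2.2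
      refine (abs_sum_le_sum_abs _ _).trans ((sum_le_sum hb).trans ?_)
      rw [sum_const, nsmul_eq_mul, card_range]
      refine le_trans (mul_le_mul_of_nonneg_right ?_ (h.heta _)) (h.h6 j)
      exact_mod_cast hj
    · have : win i = ∅ := by
        rw [Finset.eq_empty_iff_forall_notMem]
        intro p hp
        rw [hwin, mem_filter, mem_filter] at hp
        have h1 := hNom p hp.1.1
        have h2 := lt_ell (om sg p)
        omega
      rw [this, sum_empty, abs_zero]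
      positivity
  -- the high part
  have ehigh : ∀ i, |∑ p ∈ high i, (ε p.1 : ℝ) * ap (nd sg p) (x i)| ≤
      (1 / 2 : ℝ) ^ (i + 3) := by
    intro i
    have hsub : ∀ p ∈ high i, p ∈ P ∧ L i ≤ ell (om sg p) := by
      intro p hp
      rw [hhigh, mem_filter, mem_filter] at hp
      exact ⟨hp.1.1, not_lt.1 hp.2⟩
    rcases (high i).eq_empty_or_nonempty with he | hne'
    · rw [he, sum_empty, abs_zero]; positivity
    · obtain ⟨q, hq, hqmin⟩ := (high i).exists_min_image (om sg) hne'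
      have h1 : ∀ p ∈ high i, |(ε p.1 : ℝ) * ap (nd sg p) (x i)| ≤
          (m (ell (om sg p)) : ℝ)⁻¹ * l1 (x i) := by
        intro p hp
        rw [abs_mul, hsign p (hsub p hp).1, one_mul]
        exact abs_ap_wtd_le (hnd p (hsub p hp).1) _
      refine (abs_sum_le_sum_abs _ _).trans ((sum_le_sum h1).trans ?_)
      rw [← sum_mul]
      have h2 := sum_inv_ell_le (high i) sg
        (hinj.mono fun p hp => (hsub p hp).1) (om sg q) hqmin
      have h3 : ((m (ell (om sg q)) : ℕ) : ℝ)⁻¹ ≤ ((m (L i) : ℕ) : ℝ)⁻¹ :=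
        inv_anti₀ (m_posR _) (by exact_mod_cast m_mono (hsub q hq).2)
      have h4 := h.h3 i
      rw [div_eq_inv_mul] at h4
      calc (∑ p ∈ high i, (m (ell (om sg p)) : ℝ)⁻¹) * l1 (x i)
          ≤ (2 * (m (L i) : ℝ)⁻¹) * l1 (x i) :=
            mul_le_mul_of_nonneg_right (h2.trans (by linarith)) (l1_nonneg _)
        _ = 2 * ((m (L i) : ℝ)⁻¹ * l1 (x i)) := by ring
        _ ≤ 2 * (1 / 2) ^ (i + 4) := by linarith
        _ = (1 / 2) ^ (i + 3) := by rw [pow_succ (1 / 2 : ℝ) (i + 3)]; ring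
  -- the low part
  have elow : |∑ i ∈ A', ∑ p ∈ low i, (ε p.1 : ℝ) * ap (nd sg p) (x i)| ≤ 3 * GG A.card := by
    have hswap : ∑ i ∈ A', ∑ p ∈ low i, (ε p.1 : ℝ) * ap (nd sg p) (x i) =
        ∑ p ∈ P, (ε p.1 : ℝ) * ap (nd sg p)
          (∑ i ∈ A'.filter fun i => ell (om sg p) ≤ D i, x i) := by
      have e1 : ∀ i ∈ A', ∑ p ∈ low i, (ε p.1 : ℝ) * ap (nd sg p) (x i) =
          ∑ p ∈ P, if ell (om sg p) ≤ D i then (ε p.1 : ℝ) * ap (nd sg p) (x i) else 0 :=
        fun i _ => by rw [hlow, sum_filter]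
      rw [sum_congr rfl e1, sum_comm]
      refine sum_congr rfl fun p _ => ?_
      rw [← sum_filter, ap_sum_right, mul_sum]
    rw [hswap]
    set b : (Σ _ : ℕ, ℕ) → ℝ := fun p => m (ell (om sg p)) * |ap (nd sg p)
      (∑ i ∈ A'.filter fun i => ell (om sg p) ≤ D i, x i)| / 8 with hb
    have hest : ∀ p ∈ P, _ := fun p hp => node_est h ih (one_le_ell (om sg p)) (hnd p hp)
      (A'.filter fun i => ell (om sg p) ≤ D i) (fun i hi => (mem_filter.1 hi).2) (t := A.card)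
      ((card_filter_le _ _).trans (card_filter_le _ _))
    have hsum := sum_weights_le (M := fun w => ((m (ell w) : ℕ) : ℝ)) (l := ell) one_le_ell
      (fun w => m_ge_ff' (one_le_ell w)) geo_ell
      (by exact_mod_cast sixtyfour_le_m (ell 0)) lac_ell (t := A.card) P (om sg) hinj b
      (fun p hp => by
        have := (hest p hp).1
        simp only [hb]
        linarith)
      (fun p hp => by
        have := (hest p hp).2.1
        simp only [hb]
        linarith)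
      (fun p hp ht => by
        have := (hest p hp).2.2 ht
        simp only [hb]
        linarith)
    have hle : |∑ p ∈ P, (ε p.1 : ℝ) * ap (nd sg p)
          (∑ i ∈ A'.filter fun i => ell (om sg p) ≤ D i, x i)| ≤
        8 * ∑ p ∈ P, b p / m (ell (om sg p)) := by
      rw [mul_sum]
      refine (abs_sum_le_sum_abs _ _).trans (sum_le_sum fun p hp => le_of_eq ?_)
      rw [abs_mul, hsign p hp, one_mul]
      simp only [hb]
      have := (m_posR (ell (om sg p))).ne'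
      field_simp
    refine hle.trans ?_
    linarith
  -- conclusion
  have e' : |ap g (∑ i ∈ A', x i)| ≤ 3 * GG A.card + 3 / 4 := by
    have e1 : ap g (∑ i ∈ A', x i) =
        ∑ i ∈ A', ∑ p ∈ low i, (ε p.1 : ℝ) * ap (nd sg p) (x i) +
        (∑ i ∈ A', ∑ p ∈ win i, (ε p.1 : ℝ) * ap (nd sg p) (x i) +
          ∑ i ∈ A', ∑ p ∈ high i, (ε p.1 : ℝ) * ap (nd sg p) (x i)) := by
      rw [ap_sum_right, sum_congr rfl fun i _ => hdec i, sum_add_distrib, sum_add_distrib]
    have e2 : |∑ i ∈ A', ∑ p ∈ win i, (ε p.1 : ℝ) * ap (nd sg p) (x i)| ≤ 1 / 2 := by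
      refine (abs_sum_le_sum_abs _ _).trans ((sum_le_sum ewin).trans ?_)
      refine (sum_half_pow_le A' 2).trans ?_
      norm_num
    have e3' : |∑ i ∈ A', ∑ p ∈ high i, (ε p.1 : ℝ) * ap (nd sg p) (x i)| ≤ 1 / 4 := by
      refine (abs_sum_le_sum_abs _ _).trans ((sum_le_sum fun i _ => ehigh i).trans ?_)
      refine (sum_half_pow_le A' 3).trans ?_
      norm_num
    rw [e1]
    refine (abs_add_le _ _).trans ?_
    have := abs_add_le (∑ i ∈ A', ∑ p ∈ win i, (ε p.1 : ℝ) * ap (nd sg p) (x i))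
      (∑ i ∈ A', ∑ p ∈ high i, (ε p.1 : ℝ) * ap (nd sg p) (x i))
    linarith
  rw [hsplit, ap_add_right]
  refine (abs_add_le _ _).trans ?_
  linarith

/-- **Lemma U.** -/
theorem RIS.upper (h : RIS x D L η) : ∀ φ ∈ K, ∀ A : Finset ℕ,
    |ap φ (∑ i ∈ A, x i)| ≤ 8 * GG A.card := by
  classical
  have main : ∀ s, ∀ φ ∈ Kst s, ∀ A : Finset ℕ, |ap φ (∑ i ∈ A, x i)| ≤ 8 * GG A.card := by
    intro s
    induction s with
    | zero =>
      intro φ hφ A
      have hK : φ ∈ K := Kst_subset_K 0 hφ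
      rcases A.eq_empty_or_nonempty with rfl | hne
      · simp [ap_eq, GG_zero]
      have hG := one_le_GG hne.card_pos
      have hsupp : ∀ a ∈ φ.support, ∀ b ∈ φ.support, a = b := by
        rcases hφ with rfl | ⟨c, rfl | rfl⟩
        · simp
        · intro a ha b hb
          have h1 := Finsupp.support_single_subset ha
          have h2 := Finsupp.support_single_subset hb
          rw [mem_singleton] at h1 h2
          rw [h1, h2]
        · intro a ha b hb
          have h1 := Finsupp.support_single_subset ha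
          have h2 := Finsupp.support_single_subset hb
          rw [mem_singleton] at h1 h2
          rw [h1, h2]
      rw [ap_sum_right]
      refine (abs_sum_le_sum_abs _ _).trans ?_
      set B := A.filter fun i => ap φ (x i) ≠ 0 with hB
      have hcard : B.card ≤ 1 := by
        rw [Finset.card_le_one]
        intro i hi j hj
        rw [hB, mem_filter] at hi hj
        have hi' : ∃ a ∈ φ.support, a ∈ (x i).support := by
          by_contra hcon; push Not at hcon; exact hi.2 (ap_eq_zero hcon)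
        have hj' : ∃ a ∈ φ.support, a ∈ (x j).support := by
          by_contra hcon; push Not at hcon; exact hj.2 (ap_eq_zero hcon)
        obtain ⟨a, ha, hai⟩ := hi'
        obtain ⟨b, hb, hbj⟩ := hj'
        have hab := hsupp a ha b hb
        subst hab
        by_contra hne
        rcases lt_or_gt_of_ne hne with hlt | hlt
        · exact lt_irrefl _ (h.hs i j hlt a hai a hbj)
        · exact lt_irrefl _ (h.hs j i hlt a hbj a hai)
      have : ∑ i ∈ A, |ap φ (x i)| = ∑ i ∈ B, |ap φ (x i)| := by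
        symm
        refine sum_subset (filter_subset _ _) fun i hi hni => ?_
        rw [hB, mem_filter] at hni
        push Not at hni
        rw [hni hi, abs_zero]
      rw [this]
      calc ∑ i ∈ B, |ap φ (x i)| ≤ ∑ i ∈ B, (1 : ℝ) :=
            sum_le_sum fun i _ => (abs_ap_le_nrm hK (x i)).trans (h.h1 i)
        _ = B.card := by rw [sum_const, nsmul_eq_mul, mul_one]
        _ ≤ 1 := by exact_mod_cast hcard
        _ ≤ 8 * GG A.card := by linarith
    | succ s ih =>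
      intro φ hφ A
      have hK : φ ∈ K := Kst_subset_K (s + 1) hφ
      rcases A.eq_empty_or_nonempty with rfl | hne
      · simp [ap_eq, GG_zero]
      rcases hφ with (hφ | ⟨n, hn, hφ⟩) | ⟨N, sg, ε, hadm, rfl⟩
      · exact ih φ hφ A
      · exact k2_est h ih (by omega) hφ hK hne
      · exact k3_est h ih hadm hK hne
  intro φ hφ
  obtain ⟨s, hs⟩ := Set.mem_iUnion.1 hφ
  exact main s φ hs

/-- Lemma U for the norm. -/
theorem RIS.nrm_sum_le (h : RIS x D L η) (A : Finset ℕ) :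
    nrm (∑ i ∈ A, x i) ≤ 8 * GG A.card := by
  have : Nonempty K := ⟨⟨0, Kst_subset_K 0 (Or.inl rfl)⟩⟩
  exact ciSup_le fun φ => h.upper φ.1 φ.2 A

theorem nrm_smul_eq (c : ℝ) (y : Vec) : nrm (c • y) = |c| * nrm y := by
  have h : ∀ φ : K, |ap φ.1 (c • y)| = |c| * |ap φ.1 y| := fun φ => by
    rw [← abs_mul]; congr 1; exact map_smul (pr (toR φ.1)) c y
  unfold nrm
  simp only [h]
  exact (Real.mul_iSup_of_nonneg (abs_nonneg c) _).symm

/-- The norm of the vector of an exact pair of weight `n`. -/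
theorem RIS.nrm_avg_le (h : RIS x D L η) {n : ℕ} (hn : 1 ≤ n) {A : Finset ℕ} (hA : A.card = n) :
    nrm (((m n : ℝ) / n) • ∑ i ∈ A, x i) ≤ 1536 := by
  have hn0 : (0 : ℝ) < n := by exact_mod_cast hn
  have hc : 0 ≤ (m n : ℝ) / n := div_nonneg (m_posR n).le hn0.le
  rw [nrm_smul_eq, abs_of_nonneg hc]
  calc (m n : ℝ) / n * nrm (∑ i ∈ A, x i) ≤ (m n : ℝ) / n * (8 * GG A.card) :=
        mul_le_mul_of_nonneg_left (h.nrm_sum_le A) hc
    _ = 8 * ((m n : ℝ) / n * GG n) := by rw [hA]; ring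
    _ ≤ 8 * 192 := mul_le_mul_of_nonneg_left (m_div_mul_GG hn) (by norm_num)
    _ = 1536 := by norm_num

/-- The exact statement asked for in note 1341. -/
theorem lemmaU (x : ℕ → Vec) (D L : ℕ → ℕ) (η : ℕ → ℝ)
    (hs : ∀ i j, i < j → SLt (x i).support (x j).support)
    (hDL : ∀ i, D i < L i) (hLD : ∀ i, L i ≤ D (i + 1))
    (h1 : ∀ i, nrm (x i) ≤ 1) (h2 : ∀ i, AvgBound (D i) (x i) 3)
    (h3 : ∀ i, l1 (x i) / m (L i) ≤ (1 / 2) ^ (i + 4))
    (h5 : ∀ i, ∀ s : Seg, s.Ok K → (∀ w ∈ s.idx, D i < ell w ∧ ell w < L i) →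
      |ap s.fn (x i)| ≤ η i)
    (h6 : ∀ i, (L i : ℝ) * η (i + 1) ≤ (1 / 2) ^ (i + 3)) (heta : ∀ i, 0 ≤ η i) :
    ∀ φ ∈ K, ∀ A : Finset ℕ, |ap φ (∑ i ∈ A, x i)| ≤ 8 * GG A.card :=
  (RIS.mk hs hDL hLD h1 h2 h3 h5 h6 heta).upper

end Vale.Agent.P129.H487
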