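import Vale.Agent.P129.H487.Real

/-!
# P129, part D: a weighted node acting on a sum of good vectors (abstract combinatorial form)
-/

namespace Vale.Agent.P129.H487

open Finset

variable {E : Type*} [AddCommGroup E] [Module ℝ E]

/-- Children `φ 0, …, φ (d-1)` act on `∑ i ∈ A, x i`.  `R j i` says that `φ j` meets the range of
`x i`; successiveness of the children and of the vectors is the condition `hR`.  The sum of the
values is bounded by `C` times a sum of at most `2 d` values of `G` with total at most `|A|`. -/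
theorem node_pieces (x : ℕ → E) (A : Finset ℕ) (d : ℕ) (φ : ℕ → E →ₗ[ℝ] ℝ) (R : ℕ → ℕ → Prop)
    (hR0 : ∀ j < d, ∀ i ∈ A, ¬ R j i → φ j (x i) = 0)
    (hR : ∀ j j' i i', j < j' → j' < d → i ∈ A → i' ∈ A → i < i' → R j' i → R j i' → False)
    {C : ℝ} (hC : 3 ≤ C)
    (hφ : ∀ j < d, ∀ B ⊆ A, |φ j (∑ i ∈ B, x i)| ≤ C * GG B.card)
    (h2 : ∀ i ∈ A, ∑ j ∈ range d, |φ j (x i)| ≤ 3) :
    ∃ (J : Finset (ℕ ⊕ ℕ)) (s : ℕ ⊕ ℕ → ℕ), J.card ≤ 2 * d ∧ ∑ p ∈ J, s p ≤ A.card ∧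
      |∑ j ∈ range d, φ j (∑ i ∈ A, x i)| ≤ C * ∑ p ∈ J, GG (s p) := by
  classical
  set S : Finset ℕ := A.filter fun i => ∃ j j', j < j' ∧ j' < d ∧ R j i ∧ R j' i with hS
  set T : ℕ → Finset ℕ := fun j => (A \ S).filter fun i => R j i with hT
  have hSA : S ⊆ A := filter_subset _ _
  -- the first child meeting a split vector
  have hfirst : ∀ i ∈ S, ∃ j < d, R j i ∧ (∀ k < j, ¬ R k i) ∧ ∃ j' < d, j < j' ∧ R j' i := by
    intro i hi
    rw [hS, mem_filter] at hi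
    obtain ⟨hiA, j, j', hjj, hj'd, hj, hj'⟩ := hi
    have hex : ∃ k, R k i := ⟨j, hj⟩
    refine ⟨Nat.find hex, ?_, Nat.find_spec hex, fun k hk => Nat.find_min hex hk, j', hj'd, ?_, hj'⟩
    · exact lt_of_le_of_lt (Nat.find_min' hex hj) (hjj.trans hj'd)
    · exact lt_of_le_of_lt (Nat.find_min' hex hj) hjj
  choose! fst hfst_lt hfstR hfstmin snd hsnd_lt hfs hsndR using hfirst
  have hcardS : S.card ≤ d := by
    have : S.card ≤ (range d).card := by
      refine card_le_card_of_injOn fst (fun i hi => ?_) ?_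
      · simpa using hfst_lt i hi
      · intro i hi i' hi' h
        by_contra hne
        have hi2 : i ∈ S := hi
        have hi2' : i' ∈ S := hi'
        rcases lt_or_gt_of_ne hne with hlt | hlt
        · exact hR (fst i) (snd i) i i' (hfs i hi2) (hsnd_lt i hi2) (hSA hi2) (hSA hi2') hlt
            (hsndR i hi2) (h ▸ hfstR i' hi2')
        · exact hR (fst i') (snd i') i' i (hfs i' hi2') (hsnd_lt i' hi2') (hSA hi2') (hSA hi2) hlt
            (hsndR i' hi2') (h ▸ hfstR i hi2)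
    simpa using this
  have hTA : ∀ j, T j ⊆ A := fun j => (filter_subset _ _).trans sdiff_subset
  have hTdisj : ∀ j ∈ range d, ∀ j' ∈ range d, j ≠ j' → Disjoint (T j) (T j') := by
    intro j hj j' hj' hne
    rw [Finset.disjoint_left]
    intro i hi hi'
    rw [hT, mem_filter, mem_sdiff] at hi hi'
    apply hi.1.2
    rw [hS, mem_filter]
    rcases lt_or_gt_of_ne hne with h | h
    · exact ⟨hi.1.1, j, j', h, mem_range.1 hj', hi.2, hi'.2⟩
    · exact ⟨hi.1.1, j', j, h, mem_range.1 hj, hi'.2, hi.2⟩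
  have hsumT : ∑ j ∈ range d, (T j).card ≤ (A \ S).card := by
    rw [← card_biUnion hTdisj]
    exact card_le_card (biUnion_subset.2 fun j _ => filter_subset _ _)
  have hval : ∀ j ∈ range d, φ j (∑ i ∈ A, x i) = ∑ i ∈ S, φ j (x i) + φ j (∑ i ∈ T j, x i) := by
    intro j hj
    rw [mem_range] at hj
    have h1 : ∑ i ∈ A, x i = ∑ i ∈ S, x i + ∑ i ∈ A \ S, x i := by
      rw [add_comm]; exact (sum_sdiff hSA).symm
    rw [h1, map_add, map_sum, map_sum (φ j) x (A \ S), map_sum (φ j) x (T j)]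
    congr 1
    refine (sum_subset (filter_subset _ _) ?_).symm
    intro i hi hni
    refine hR0 j hj i (mem_sdiff.1 hi).1 fun hr => hni ?_
    rw [mem_filter]; exact ⟨hi, hr⟩
  refine ⟨(range d).disjSum S, Sum.elim (fun j => (T j).card) (fun _ => 1), ?_, ?_, ?_⟩
  · rw [card_disjSum, card_range]; omega
  · rw [sum_disjSum]
    simp only [Sum.elim_inl, Sum.elim_inr, sum_const, smul_eq_mul, mul_one]
    have : (A \ S).card + S.card = A.card := by
      rw [card_sdiff_add_card_eq_card hSA]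
    omega
  · rw [sum_disjSum]
    simp only [Sum.elim_inl, Sum.elim_inr, sum_const, nsmul_eq_mul, GG_one, mul_one]
    rw [sum_congr rfl hval, sum_add_distrib]
    have e1 : |∑ j ∈ range d, ∑ i ∈ S, φ j (x i)| ≤ 3 * S.card := by
      rw [sum_comm]
      calc |∑ i ∈ S, ∑ j ∈ range d, φ j (x i)| ≤ ∑ i ∈ S, |∑ j ∈ range d, φ j (x i)| :=
            abs_sum_le_sum_abs _ _
        _ ≤ ∑ i ∈ S, (3 : ℝ) := by
            refine sum_le_sum fun i hi => ?_
            exact (abs_sum_le_sum_abs _ _).trans (h2 i (hSA hi))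
        _ = 3 * S.card := by rw [sum_const, nsmul_eq_mul, mul_comm]
    have e2 : |∑ j ∈ range d, φ j (∑ i ∈ T j, x i)| ≤ ∑ j ∈ range d, C * GG (T j).card :=
      (abs_sum_le_sum_abs _ _).trans
        (sum_le_sum fun j hj => hφ j (mem_range.1 hj) (T j) (hTA j))
    rw [← mul_sum] at e2
    have hS0 : (0 : ℝ) ≤ S.card := by positivity
    calc |∑ j ∈ range d, ∑ i ∈ S, φ j (x i) + ∑ j ∈ range d, φ j (∑ i ∈ T j, x i)|
        ≤ 3 * S.card + C * ∑ j ∈ range d, GG (T j).card := (abs_add_le _ _).trans (add_le_add e1 e2)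
      _ ≤ C * (∑ j ∈ range d, GG (T j).card + S.card) := by nlinarith

/-- The three bounds for a node with `d ≤ n` children, `1 ≤ n`. -/
theorem node_bound (x : ℕ → E) (A : Finset ℕ) (d : ℕ) (φ : ℕ → E →ₗ[ℝ] ℝ) (R : ℕ → ℕ → Prop)
    (hR0 : ∀ j < d, ∀ i ∈ A, ¬ R j i → φ j (x i) = 0)
    (hR : ∀ j j' i i', j < j' → j' < d → i ∈ A → i' ∈ A → i < i' → R j' i → R j i' → False)
    {C : ℝ} (hC : 3 ≤ C)
    (hφ : ∀ j < d, ∀ B ⊆ A, |φ j (∑ i ∈ B, x i)| ≤ C * GG B.card)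
    (h2 : ∀ i ∈ A, ∑ j ∈ range d, |φ j (x i)| ≤ 3) {n : ℕ} (hn : 1 ≤ n) (hdn : d ≤ n)
    {t : ℕ} (ht : A.card ≤ t) :
    |∑ j ∈ range d, φ j (∑ i ∈ A, x i)| ≤ C * t ∧
    |∑ j ∈ range d, φ j (∑ i ∈ A, x i)| ≤ C * (2 * ff (2 * n) * GG t) ∧
    ((2 * n) ^ 2 ≤ t → |∑ j ∈ range d, φ j (∑ i ∈ A, x i)| ≤ C * (4 * GG t)) := by
  obtain ⟨J, s, hJ, hs, h⟩ := node_pieces x A d φ R hR0 hR hC hφ h2
  have hC0 : 0 ≤ C := by linarith
  have hn1 : (1 : ℝ) ≤ n := by exact_mod_cast hn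
  have hq : (1 : ℝ) ≤ 2 * n := by linarith
  have hJq : (J.card : ℝ) ≤ 2 * n := by
    have : J.card ≤ 2 * n := by omega
    exact_mod_cast this
  refine ⟨h.trans (mul_le_mul_of_nonneg_left (sum_GG_le J s (hs.trans ht)) hC0),
    h.trans (mul_le_mul_of_nonneg_left (sum_GG_le_ff J s hq hJq (hs.trans ht)) hC0), fun hn2 => ?_⟩
  refine h.trans (mul_le_mul_of_nonneg_left (sum_GG_le_four J s hq hJq (hs.trans ht) ?_) hC0)
  exact_mod_cast hn2

end Vale.Agent.P129.H487
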