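import Mathlib

/-!
# P129, part D: the growth functions `f`, `G` and their inequalities

`ff t = 1 + (1/2) log t`, `GG t = t / ff t` for natural `t` (so `GG 0 = 0`, `GG 1 = 1`).
-/

namespace Vale.Agent.P129.H487

open Finset

/-- `f(t) = 1 + (1/2) log t`. -/
noncomputable def ff (t : ℝ) : ℝ := 1 + Real.log t / 2

/-- `G(t) = t / f(t)` for natural `t`. -/
noncomputable def GG (t : ℕ) : ℝ := (t : ℝ) / ff t

theorem ff_one : ff 1 = 1 := by simp [ff]

theorem one_le_ff {t : ℝ} (ht : 1 ≤ t) : 1 ≤ ff t := by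
  have := Real.log_nonneg ht
  unfold ff; linarith

theorem ff_pos {t : ℝ} (ht : 1 ≤ t) : 0 < ff t := lt_of_lt_of_le one_pos (one_le_ff ht)

theorem ff_mono {s t : ℝ} (hs : 0 < s) (h : s ≤ t) : ff s ≤ ff t := by
  have := Real.log_le_log hs h
  unfold ff; linarith

theorem ff_mul {s t : ℝ} (hs : 1 ≤ s) (ht : 1 ≤ t) : ff (s * t) ≤ ff s * ff t := by
  have h1 := Real.log_nonneg hs
  have h2 := Real.log_nonneg ht
  have h3 : Real.log (s * t) = Real.log s + Real.log t :=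
    Real.log_mul (by linarith) (by linarith)
  unfold ff
  rw [h3]
  nlinarith [mul_nonneg h1 h2]

/-- `f(t) ≤ 2 f(s)` if `t ≤ s^2`. -/
theorem ff_sq {s t : ℝ} (ht : 0 < t) (h : t ≤ s ^ 2) : ff t ≤ 2 * ff s := by
  have h1 := Real.log_le_log ht h
  rw [Real.log_pow] at h1
  unfold ff
  push_cast at h1
  linarith

/-- `t ↦ t / f(t)` is monotone on `[1, ∞)`. -/
theorem div_ff_mono {s t : ℝ} (hs : 1 ≤ s) (h : s ≤ t) : s / ff s ≤ t / ff t := by
  have hs0 : 0 < s := by linarith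
  have ht0 : 0 < t := by linarith
  rw [div_le_div_iff₀ (ff_pos hs) (ff_pos (hs.trans h))]
  -- `s f(t) ≤ t f(s)`
  have hlog : Real.log t = Real.log s + Real.log (t / s) := by
    rw [Real.log_div ht0.ne' hs0.ne']; ring
  have h1 : Real.log (t / s) ≤ t / s - 1 := Real.log_le_sub_one_of_pos (by positivity)
  have h2 : s * Real.log (t / s) ≤ t - s := by
    have := mul_le_mul_of_nonneg_left h1 hs0.le
    have h3 : s * (t / s - 1) = t - s := by field_simp
    linarith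
  have h3 := Real.log_nonneg hs
  unfold ff
  rw [hlog]
  nlinarith [mul_nonneg (sub_nonneg.2 h) h3]

theorem GG_zero : GG 0 = 0 := by simp [GG]

theorem GG_one : GG 1 = 1 := by simp [GG, ff_one]

theorem GG_nonneg (t : ℕ) : 0 ≤ GG t := by
  rcases Nat.eq_zero_or_pos t with h | h
  · simp [h, GG_zero]
  · have : (1 : ℝ) ≤ t := by exact_mod_cast h
    exact div_nonneg (by linarith) (ff_pos this).le

theorem GG_mono {s t : ℕ} (h : s ≤ t) : GG s ≤ GG t := by
  rcases Nat.eq_zero_or_pos s with h0 | h0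
  · rw [h0, GG_zero]; exact GG_nonneg t
  · exact div_ff_mono (by exact_mod_cast h0) (by exact_mod_cast h)

theorem one_le_GG {t : ℕ} (h : 1 ≤ t) : 1 ≤ GG t := by
  rw [← GG_one]; exact GG_mono h

theorem GG_le (t : ℕ) : GG t ≤ t := by
  rcases Nat.eq_zero_or_pos t with h | h
  · simp [h, GG_zero]
  · have h1 : (1 : ℝ) ≤ t := by exact_mod_cast h
    exact div_le_self (by linarith) (one_le_ff h1)

/-- `t = f(t) G(t)`. -/
theorem ff_mul_GG {t : ℕ} (h : 1 ≤ t) : ff t * GG t = t := by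
  have h1 : (1 : ℝ) ≤ t := by exact_mod_cast h
  unfold GG
  rw [mul_div_cancel₀ _ (ff_pos h1).ne']

/-- `G(t) ≤ (t/q) / f(t/q)` style bound used twice: if `1 ≤ r`, `r ≤ s` ... -/
theorem GG_le_of_le {r : ℝ} (hr : 1 ≤ r) {s : ℕ} (h : (s : ℝ) ≤ r) : GG s ≤ r / ff r := by
  rcases Nat.eq_zero_or_pos s with h0 | h0
  · rw [h0, GG_zero]; exact div_nonneg (by linarith) (ff_pos hr).le
  · exact div_ff_mono (by exact_mod_cast h0) h

theorem GG_le_of_ge {r : ℝ} (hr : 1 ≤ r) {s : ℕ} (h : r ≤ (s : ℝ)) : GG s ≤ s / ff r := by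
  unfold GG
  exact div_le_div_of_nonneg_left (by linarith) (ff_pos hr) (ff_mono (by linarith) h)

variable {α : Type*}

/-- The trivial bound. -/
theorem sum_GG_le (J : Finset α) (s : α → ℕ) {t : ℕ} (hs : ∑ j ∈ J, s j ≤ t) :
    ∑ j ∈ J, GG (s j) ≤ t := by
  calc ∑ j ∈ J, GG (s j) ≤ ∑ j ∈ J, (s j : ℝ) := sum_le_sum fun j _ => GG_le _
    _ = ((∑ j ∈ J, s j : ℕ) : ℝ) := by push_cast; rfl
    _ ≤ t := by exact_mod_cast hs

/-- If `1 ≤ t/q` then the sum of at most `q` values of `G` with total `≤ t` is at most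
`2 t / f(t/q)`. -/
theorem sum_GG_le_div (J : Finset α) (s : α → ℕ) {t : ℕ} {q : ℝ} (hq : 1 ≤ q)
    (hJ : (J.card : ℝ) ≤ q) (hs : ∑ j ∈ J, s j ≤ t) (hqt : q ≤ t) :
    ∑ j ∈ J, GG (s j) ≤ 2 * (t / ff (t / q)) := by
  classical
  have hq0 : 0 < q := by linarith
  have hr : (1 : ℝ) ≤ t / q := by rwa [le_div_iff₀ hq0, one_mul]
  have hfr := ff_pos hr
  rw [← Finset.sum_filter_add_sum_filter_not J (fun j => (s j : ℝ) ≤ t / q)]
  have h1 : ∑ j ∈ J with (s j : ℝ) ≤ t / q, GG (s j) ≤ t / ff (t / q) := by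
    calc ∑ j ∈ J with (s j : ℝ) ≤ t / q, GG (s j)
        ≤ ∑ j ∈ J with (s j : ℝ) ≤ t / q, (t / q) / ff (t / q) :=
          sum_le_sum fun j hj => GG_le_of_le hr (mem_filter.1 hj).2
      _ = ((J.filter fun j => (s j : ℝ) ≤ t / q).card : ℝ) * ((t / q) / ff (t / q)) := by
          rw [sum_const, nsmul_eq_mul]
      _ ≤ q * ((t / q) / ff (t / q)) := by
          refine mul_le_mul_of_nonneg_right ?_ (div_nonneg (by linarith) hfr.le)
          exact le_trans (by exact_mod_cast card_filter_le _ _) hJ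
      _ = t / ff (t / q) := by
          rw [← mul_div_assoc, mul_div_cancel₀ _ hq0.ne']
  have h2 : ∑ j ∈ J with ¬ (s j : ℝ) ≤ t / q, GG (s j) ≤ t / ff (t / q) := by
    calc ∑ j ∈ J with ¬ (s j : ℝ) ≤ t / q, GG (s j)
        ≤ ∑ j ∈ J with ¬ (s j : ℝ) ≤ t / q, (s j : ℝ) / ff (t / q) :=
          sum_le_sum fun j hj => GG_le_of_ge hr (le_of_lt (not_le.1 (mem_filter.1 hj).2))
      _ = (∑ j ∈ J with ¬ (s j : ℝ) ≤ t / q, (s j : ℝ)) / ff (t / q) := by
          rw [sum_div]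
      _ ≤ (∑ j ∈ J, (s j : ℝ)) / ff (t / q) := by
          refine div_le_div_of_nonneg_right ?_ hfr.le
          exact sum_le_sum_of_subset_of_nonneg (filter_subset _ _) fun _ _ _ => by positivity
      _ ≤ t / ff (t / q) := by
          refine div_le_div_of_nonneg_right ?_ hfr.le
          exact_mod_cast hs
  linarith

/-- At most `q` values of `G` with total `≤ t` add up to at most `2 f(q) G(t)`. -/
theorem sum_GG_le_ff (J : Finset α) (s : α → ℕ) {t : ℕ} {q : ℝ} (hq : 1 ≤ q)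
    (hJ : (J.card : ℝ) ≤ q) (hs : ∑ j ∈ J, s j ≤ t) :
    ∑ j ∈ J, GG (s j) ≤ 2 * ff q * GG t := by
  have hfq := ff_pos hq
  rcases Nat.eq_zero_or_pos t with h0 | h0
  · subst h0
    have := sum_GG_le J s hs
    simpa [GG_zero] using this
  have ht1 : (1 : ℝ) ≤ t := by exact_mod_cast h0
  rcases le_total q (t : ℝ) with h | h
  · have hq0 : 0 < q := by linarith
    have hr : (1 : ℝ) ≤ t / q := by rwa [le_div_iff₀ hq0, one_mul]
    have h1 := sum_GG_le_div J s hq hJ hs h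
    have h2 : ff t ≤ ff (t / q) * ff q := by
      have := ff_mul hr hq
      rwa [div_mul_cancel₀ _ hq0.ne'] at this
    have h3 : (t : ℝ) / ff (t / q) ≤ ff q * GG t := by
      unfold GG
      rw [div_le_iff₀ (ff_pos hr), ← mul_div_assoc, div_mul_eq_mul_div, le_div_iff₀ (ff_pos ht1)]
      nlinarith
    linarith
  · have h1 := sum_GG_le J s hs
    have h2 : (t : ℝ) ≤ ff q * GG t := by
      rw [← ff_mul_GG h0]
      exact mul_le_mul_of_nonneg_right (ff_mono (by linarith) h) (GG_nonneg t)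
    have h3 : 0 ≤ ff q * GG t := mul_nonneg hfq.le (GG_nonneg t)
    linarith

/-- At most `q` values of `G` with total `≤ t` and `q^2 ≤ t` add up to at most `4 G(t)`. -/
theorem sum_GG_le_four (J : Finset α) (s : α → ℕ) {t : ℕ} {q : ℝ} (hq : 1 ≤ q)
    (hJ : (J.card : ℝ) ≤ q) (hs : ∑ j ∈ J, s j ≤ t) (hqt : q ^ 2 ≤ t) :
    ∑ j ∈ J, GG (s j) ≤ 4 * GG t := by
  have hq0 : 0 < q := by linarith
  have hqt' : q ≤ t := by nlinarith
  have ht0 : (0 : ℝ) < t := by linarith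
  have hr : (1 : ℝ) ≤ t / q := by rwa [le_div_iff₀ hq0, one_mul]
  have h1 := sum_GG_le_div J s hq hJ hs hqt'
  have h2 : ff t ≤ 2 * ff (t / q) := by
    refine ff_sq ht0 ?_
    rw [div_pow, le_div_iff₀ (by positivity)]
    nlinarith
  have h3 : (t : ℝ) / ff (t / q) ≤ 2 * GG t := by
    unfold GG
    have ht1 : (1 : ℝ) ≤ t := by linarith
    rw [div_le_iff₀ (ff_pos hr), ← mul_div_assoc, div_mul_eq_mul_div, le_div_iff₀ (ff_pos ht1)]
    nlinarith
  linarith

/-! ### Comparison with `1 + Nat.log 2 n` -/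

theorem ff_two_mul_le {n : ℕ} (hn : 1 ≤ n) : ff (2 * n) ≤ 2 * (1 + (Nat.log 2 n : ℝ)) := by
  have h1 : n < 2 ^ (Nat.log 2 n + 1) := Nat.lt_pow_succ_log_self (by norm_num) n
  have h2 : (n : ℝ) ≤ 2 ^ (Nat.log 2 n + 1) := by exact_mod_cast h1.le
  have hn0 : (0 : ℝ) < n := by exact_mod_cast hn
  have h3 : Real.log (2 * n) ≤ (Nat.log 2 n + 2) * Real.log 2 := by
    have : (2 * (n : ℝ)) ≤ 2 ^ (Nat.log 2 n + 2) := by
      rw [pow_succ]; linarith
    have h4 := Real.log_le_log (by positivity) this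
    rw [Real.log_pow] at h4
    push_cast at h4
    exact h4
  have h5 : Real.log 2 ≤ 1 := by
    have := Real.log_two_lt_d9; linarith
  have h6 : 0 ≤ Real.log 2 := Real.log_nonneg (by norm_num)
  have h7 : (Nat.log 2 n + 2 : ℝ) * Real.log 2 ≤ Nat.log 2 n + 2 := by
    have : (0 : ℝ) ≤ Nat.log 2 n + 2 := by positivity
    nlinarith
  have h8 : (0 : ℝ) ≤ Nat.log 2 n := by positivity
  unfold ff
  linarith

theorem natlog_le_ff {n : ℕ} (hn : 1 ≤ n) : (1 + (Nat.log 2 n : ℝ)) ≤ 3 * ff n := by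
  have h1 : 2 ^ Nat.log 2 n ≤ n := Nat.pow_log_le_self 2 (by omega)
  have h2 : (2 : ℝ) ^ Nat.log 2 n ≤ n := by exact_mod_cast h1
  have h4 := Real.log_le_log (by positivity) h2
  rw [Real.log_pow] at h4
  have h5 : (2 : ℝ) / 3 ≤ Real.log 2 := by
    have := Real.log_two_gt_d9; linarith
  have h8 : (0 : ℝ) ≤ Nat.log 2 n := by positivity
  have h9 : (Nat.log 2 n : ℝ) * (2 / 3) ≤ Nat.log 2 n * Real.log 2 :=
    mul_le_mul_of_nonneg_left h5 h8
  unfold ff
  linarith

/-! ### The sum over the weights -/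

/-- Tails of the reciprocals of a sequence that at least doubles. -/
theorem sum_inv_le {M : ℕ → ℝ} (hpos : ∀ w, 0 < M w) (hgeo : ∀ w, 2 * M w ≤ M (w + 1))
    (W : Finset ℕ) (v : ℕ) (hW : ∀ w ∈ W, v ≤ w) : ∑ w ∈ W, (M w)⁻¹ ≤ 2 * (M v)⁻¹ := by
  have h1 : ∀ k, (M (v + k))⁻¹ ≤ (M v)⁻¹ * (1 / 2) ^ k := by
    intro k
    induction k with
    | zero => simp
    | succ k ih =>
      have h2 := hgeo (v + k)
      have h3 : (M (v + k + 1))⁻¹ ≤ (2 * M (v + k))⁻¹ :=
        inv_anti₀ (by have := hpos (v + k); linarith) h2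
      rw [mul_inv] at h3
      calc (M (v + (k + 1)))⁻¹ ≤ 2⁻¹ * (M (v + k))⁻¹ := h3
        _ ≤ 2⁻¹ * ((M v)⁻¹ * (1 / 2) ^ k) := mul_le_mul_of_nonneg_left ih (by norm_num)
        _ = (M v)⁻¹ * (1 / 2) ^ (k + 1) := by rw [pow_succ]; ring
  obtain ⟨N, hN⟩ : ∃ N, W ⊆ (Finset.range N).image (fun k => v + k) := by
    refine ⟨W.sup id + 1, fun w hw => ?_⟩
    rw [Finset.mem_image]
    refine ⟨w - v, ?_, ?_⟩
    · rw [Finset.mem_range]
      have : w ≤ W.sup id := Finset.le_sup (f := id) hw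
      omega
    · have := hW w hw; omega
  calc ∑ w ∈ W, (M w)⁻¹ ≤ ∑ w ∈ (Finset.range N).image (fun k => v + k), (M w)⁻¹ :=
        sum_le_sum_of_subset_of_nonneg hN fun w _ _ => inv_nonneg.2 (hpos w).le
    _ = ∑ k ∈ Finset.range N, (M (v + k))⁻¹ := by
        rw [Finset.sum_image]
        intro a _ b _ h
        simpa using h
    _ ≤ ∑ k ∈ Finset.range N, (M v)⁻¹ * (1 / 2) ^ k := sum_le_sum fun k _ => h1 k
    _ = (M v)⁻¹ * ∑ k ∈ Finset.range N, (1 / 2 : ℝ) ^ k := by rw [Finset.mul_sum]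
    _ ≤ (M v)⁻¹ * 2 := by
        refine mul_le_mul_of_nonneg_left ?_ (inv_nonneg.2 (hpos v).le)
        have := (summable_geometric_two).sum_le_tsum (Finset.range N) (fun _ _ => by positivity)
        rwa [tsum_geometric_two] at this
    _ = 2 * (M v)⁻¹ := by ring

/-- The same over an index set on which the weight index is injective. -/
theorem sum_inv_le' {M : ℕ → ℝ} (hpos : ∀ w, 0 < M w) (hgeo : ∀ w, 2 * M w ≤ M (w + 1))
    (P : Finset α) (ω : α → ℕ) (hω : Set.InjOn ω P) (v : ℕ) (hW : ∀ p ∈ P, v ≤ ω p) :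
    ∑ p ∈ P, (M (ω p))⁻¹ ≤ 2 * (M v)⁻¹ := by
  classical
  have h := sum_inv_le hpos hgeo (P.image ω) v (by
    intro w hw
    obtain ⟨p, hp, rfl⟩ := mem_image.1 hw
    exact hW p hp)
  rwa [sum_image hω] at h

/-- The sum over the nodes (of distinct weights) of the node bounds. -/
theorem sum_weights_le {M : ℕ → ℝ} {l : ℕ → ℕ} (hl : ∀ w, 1 ≤ l w)
    (hm : ∀ w, 16 * ff (2 * l w) ≤ M w) (hgeo : ∀ w, 2 * M w ≤ M (w + 1)) (h0 : 64 ≤ M 0)
    (hlac : ∀ w, (2 * l w) ^ 2 ≤ 2 * l (w + 1)) {t : ℕ} (P : Finset α) (ω : α → ℕ)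
    (hω : Set.InjOn ω P) (b : α → ℝ)
    (h1 : ∀ p ∈ P, b p ≤ t) (h2 : ∀ p ∈ P, b p ≤ 2 * ff (2 * l (ω p)) * GG t)
    (h3 : ∀ p ∈ P, (2 * l (ω p)) ^ 2 ≤ t → b p ≤ 4 * GG t) :
    ∑ p ∈ P, b p / M (ω p) ≤ 3 / 8 * GG t := by
  classical
  have hMpos : ∀ w, 0 < M w := by
    intro w
    have hw : (1 : ℝ) ≤ l w := by exact_mod_cast hl w
    have := one_le_ff (t := 2 * (l w : ℝ)) (by linarith)
    have := hm w
    linarith
  have hG := GG_nonneg t
  rcases Nat.eq_zero_or_pos t with ht0 | ht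
  · have : ∀ p ∈ P, b p / M (ω p) ≤ 0 := fun p hp => by
      have := h1 p hp
      rw [ht0, Nat.cast_zero] at this
      exact div_nonpos_of_nonpos_of_nonneg this (hMpos _).le
    refine (sum_nonpos this).trans ?_
    positivity
  have hlmono : Monotone l := by
    refine monotone_nat_of_le_succ fun w => ?_
    have := hlac w
    have := hl w
    nlinarith
  set W1 := P.filter fun p => (2 * l (ω p)) ^ 2 ≤ t with hW1
  set W2 := (P.filter fun p => ¬ (2 * l (ω p)) ^ 2 ≤ t).filter fun p => 2 * l (ω p) ≤ t with hW2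
  set W3 := (P.filter fun p => ¬ (2 * l (ω p)) ^ 2 ≤ t).filter fun p => ¬ 2 * l (ω p) ≤ t with hW3
  have hsplit : ∑ p ∈ P, b p / M (ω p) =
      ∑ p ∈ W1, b p / M (ω p) + (∑ p ∈ W2, b p / M (ω p) + ∑ p ∈ W3, b p / M (ω p)) := by
    rw [hW2, hW3, Finset.sum_filter_add_sum_filter_not, hW1, Finset.sum_filter_add_sum_filter_not]
  have e1 : ∑ p ∈ W1, b p / M (ω p) ≤ 1 / 8 * GG t := by
    calc ∑ p ∈ W1, b p / M (ω p) ≤ ∑ p ∈ W1, (4 * GG t) * (M (ω p))⁻¹ := by
          refine sum_le_sum fun w hw => ?_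
          rw [hW1, mem_filter] at hw
          rw [div_eq_mul_inv]
          exact mul_le_mul_of_nonneg_right (h3 w hw.1 hw.2) (inv_nonneg.2 (hMpos _).le)
      _ = (4 * GG t) * ∑ p ∈ W1, (M (ω p))⁻¹ := by rw [mul_sum]
      _ ≤ (4 * GG t) * (2 * (M 0)⁻¹) :=
          mul_le_mul_of_nonneg_left (sum_inv_le' hMpos hgeo W1 ω
            (hω.mono (by exact_mod_cast filter_subset _ _)) 0 fun _ _ => Nat.zero_le _)
            (by linarith)
      _ ≤ (4 * GG t) * (2 * (64 : ℝ)⁻¹) := by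
          refine mul_le_mul_of_nonneg_left ?_ (by linarith)
          have := inv_anti₀ (by norm_num) h0
          linarith
      _ = 1 / 8 * GG t := by ring
  have e2 : ∑ p ∈ W2, b p / M (ω p) ≤ 1 / 8 * GG t := by
    have hone : ∀ p ∈ W2, b p / M (ω p) ≤ 1 / 8 * GG t := by
      intro w hw
      rw [hW2, mem_filter, mem_filter] at hw
      rw [div_le_iff₀ (hMpos _)]
      have := h2 w hw.1.1
      have := hm (ω w)
      nlinarith
    have hcard : W2.card ≤ 1 := by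
      rw [Finset.card_le_one]
      intro a ha c hc
      rw [hW2, mem_filter, mem_filter] at ha hc
      refine hω (by exact_mod_cast ha.1.1) (by exact_mod_cast hc.1.1) ?_
      by_contra hne
      rcases lt_or_gt_of_ne hne with h | h
      · have h4 := hlac (ω a)
        have h5 := hlmono (show ω a + 1 ≤ ω c from h)
        have : (2 * l (ω a)) ^ 2 ≤ t := by
          refine h4.trans (le_trans ?_ hc.2); omega
        exact ha.1.2 this
      · have h4 := hlac (ω c)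
        have h5 := hlmono (show ω c + 1 ≤ ω a from h)
        have : (2 * l (ω c)) ^ 2 ≤ t := by
          refine h4.trans (le_trans ?_ ha.2); omega
        exact hc.1.2 this
    have h18 : (0 : ℝ) ≤ 1 / 8 * GG t := by positivity
    calc ∑ p ∈ W2, b p / M (ω p) ≤ ∑ w ∈ W2, 1 / 8 * GG t := sum_le_sum hone
      _ = (W2.card : ℝ) * (1 / 8 * GG t) := by rw [sum_const, nsmul_eq_mul]
      _ ≤ 1 * (1 / 8 * GG t) := mul_le_mul_of_nonneg_right (by exact_mod_cast hcard) h18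
      _ = 1 / 8 * GG t := one_mul _
  have e3 : ∑ p ∈ W3, b p / M (ω p) ≤ 1 / 8 * GG t := by
    rcases W3.eq_empty_or_nonempty with he | hne
    · rw [he, sum_empty]; positivity
    · obtain ⟨q, hq, hqmin⟩ := W3.exists_min_image ω hne
      have hvt : t ≤ 2 * l (ω q) := by
        rw [hW3, mem_filter, mem_filter] at hq
        omega
      have ht1 : (1 : ℝ) ≤ t := by exact_mod_cast ht
      have hff : ff t ≤ ff (2 * l (ω q)) := ff_mono (by linarith) (by exact_mod_cast hvt)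
      calc ∑ p ∈ W3, b p / M (ω p) ≤ ∑ p ∈ W3, (t : ℝ) * (M (ω p))⁻¹ := by
            refine sum_le_sum fun w hw => ?_
            rw [hW3, mem_filter, mem_filter] at hw
            rw [div_eq_mul_inv]
            exact mul_le_mul_of_nonneg_right (h1 w hw.1.1) (inv_nonneg.2 (hMpos _).le)
        _ = (t : ℝ) * ∑ p ∈ W3, (M (ω p))⁻¹ := by rw [mul_sum]
        _ ≤ (t : ℝ) * (2 * (M (ω q))⁻¹) :=
            mul_le_mul_of_nonneg_left
              (sum_inv_le' hMpos hgeo W3 ω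
                (hω.mono (by exact_mod_cast (filter_subset _ _).trans (filter_subset _ _)))
                (ω q) hqmin) (by positivity)
        _ = ff t * GG t * (2 * (M (ω q))⁻¹) := by rw [ff_mul_GG ht]
        _ = (2 * ff t / M (ω q)) * GG t := by rw [div_eq_mul_inv]; ring
        _ ≤ 1 / 8 * GG t := by
            refine mul_le_mul_of_nonneg_right ?_ hG
            rw [div_le_iff₀ (hMpos _)]
            have := hm (ω q)
            linarith
  rw [hsplit]
  linarith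

end Vale.Agent.P129.H487
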