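import Vale.Agent.P129.H448.Defs
import Vale.Agent.P129.H487.Node

/-!
# P129, part D: facts about the weights `ell`, `m`
-/

namespace Vale.Agent.P129.H487

open Finset Vale.Agent.P129.H448

theorem exists_ell (w : ℕ) : ∃ k, 1000 ≤ k ∧ ell w = 2 ^ k := by
  induction w with
  | zero => exact ⟨1000, le_rfl, rfl⟩
  | succ w ih =>
    obtain ⟨k, hk, h⟩ := ih
    refine ⟨ell w, ?_, rfl⟩
    rw [h]
    exact hk.trans k.lt_two_pow_self.le

theorem thousand_le_ell (w : ℕ) : 1000 ≤ ell w := by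
  obtain ⟨k, hk, h⟩ := exists_ell w
  rw [h]
  exact hk.trans k.lt_two_pow_self.le

theorem one_le_ell (w : ℕ) : 1 ≤ ell w := le_trans (by norm_num) (thousand_le_ell w)

theorem ell_succ (w : ℕ) : ell (w + 1) = 2 ^ ell w := rfl

theorem ell_lt_succ (w : ℕ) : ell w < ell (w + 1) := by
  rw [ell_succ]; exact Nat.lt_two_pow_self

theorem ell_strictMono : StrictMono ell := strictMono_nat_of_lt_succ ell_lt_succ

theorem lt_ell (w : ℕ) : w < ell w := by
  induction w with
  | zero => exact one_le_ell 0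
  | succ w ih => have := ell_lt_succ w; omega

theorem two_sq_le_pow {e : ℕ} (he : 7 ≤ e) : 2 * e ^ 2 ≤ 2 ^ e := by
  induction e, he using Nat.le_induction with
  | base => norm_num
  | succ e he ih =>
    rw [pow_succ 2 e]
    nlinarith

theorem lac_ell (w : ℕ) : (2 * ell w) ^ 2 ≤ 2 * ell (w + 1) := by
  have h := two_sq_le_pow (e := ell w) (le_trans (by norm_num) (thousand_le_ell w))
  rw [ell_succ, mul_pow]
  omega

theorem m_eq (n : ℕ) : (m n : ℝ) = 64 * (1 + (Nat.log 2 n : ℝ)) := by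
  simp [m, fw]

theorem m_mono : Monotone m := by
  intro a b h
  unfold m fw
  have := Nat.log_mono_right (b := 2) h
  omega

theorem m_pos (n : ℕ) : 0 < m n := by unfold m fw; omega

theorem m_posR (n : ℕ) : (0 : ℝ) < m n := by exact_mod_cast m_pos n

theorem sixtyfour_le_m (n : ℕ) : 64 ≤ m n := by unfold m fw; omega

theorem m_ge_ff {n : ℕ} (hn : 1 ≤ n) : 32 * ff (2 * n) ≤ m n := by
  rw [m_eq]
  have := ff_two_mul_le hn
  linarith

theorem m_ge_ff' {n : ℕ} (hn : 1 ≤ n) : 16 * ff (2 * n) ≤ m n := by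
  have h1 := m_ge_ff hn
  have h2 : (1 : ℝ) ≤ 2 * n := by
    have : (1 : ℝ) ≤ n := by exact_mod_cast hn
    linarith
  have := ff_pos h2
  linarith

theorem m_le_ff {n : ℕ} (hn : 1 ≤ n) : (m n : ℝ) ≤ 192 * ff n := by
  rw [m_eq]
  have := natlog_le_ff hn
  linarith

/-- `(m n / n) G(n) ≤ 192`. -/
theorem m_div_mul_GG {n : ℕ} (hn : 1 ≤ n) : (m n : ℝ) / n * GG n ≤ 192 := by
  have hn1 : (1 : ℝ) ≤ n := by exact_mod_cast hn
  have hn0 : (0 : ℝ) < n := by linarith
  have hf := ff_pos hn1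
  unfold GG
  rw [div_mul_div_comm, div_le_iff₀ (by positivity)]
  have := m_le_ff hn
  nlinarith

theorem geo_ell (w : ℕ) : 2 * (m (ell w) : ℝ) ≤ m (ell (w + 1)) := by
  obtain ⟨k, hk, h⟩ := exists_ell w
  have h1 : m (ell w) = 64 * (1 + k) := by
    rw [h]; unfold m fw; rw [Nat.log_pow (by norm_num)]
  have h2 : m (ell (w + 1)) = 64 * (1 + 2 ^ k) := by
    rw [ell_succ, h]; unfold m fw; rw [Nat.log_pow (by norm_num)]
  have h3 : 1 + 2 * k ≤ 2 ^ k := by
    have := two_sq_le_pow (e := k) (by omega)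
    nlinarith
  have h4 : 2 * m (ell w) ≤ m (ell (w + 1)) := by rw [h1, h2]; omega
  exact_mod_cast h4

end Vale.Agent.P129.H487
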